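import Mathlib

/-!
The interface between the ordinary differential equation and the geometry (P252):
`u(x,t) = sqrt (t^2 + F(|x|^2))`, `x` in dimension `k`, `t` real.
-/

namespace Vale.Agent.P252

open scoped ContDiff

/-- Profile functions of the variable `z = |x|^2`. -/
structure Profile (k : ℕ) where
  x : ℝ → ℝ
  y : ℝ → ℝ
  q : ℝ → ℝ
  F : ℝ → ℝ
  F_smooth : ∀ z : ℝ, 0 ≤ z → ContDiffAt ℝ ∞ F z
  F_pos : ∀ z : ℝ, 0 ≤ z → 0 < F z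
  x_pos : ∀ z : ℝ, 0 ≤ z → 0 < x z
  Y_pos : ∀ z : ℝ, 0 ≤ z → 0 < 1 + z * y z
  hF : ∀ z : ℝ, 0 ≤ z → HasDerivAt F (x z * F z) z
  hx : ∀ z : ℝ, 0 ≤ z → HasDerivAt x (x z * (y z - x z) / 2) z
  hY : ∀ z : ℝ, 0 ≤ z → HasDerivAt (fun s => s * y s)
    ((1 + z * y z) * (-(k : ℝ) * y z + x z + ((k : ℝ) + 3) * q z) / 2) z
  hq : ∀ z : ℝ, 0 ≤ z → ∃ q' : ℝ, HasDerivAt q q' z ∧
    2 * z * q' = -(k : ℝ) * q z + x z
      + z * (((k : ℝ) + 2) * q z ^ 2 - ((k : ℝ) - 1) * q z * y z + x z * y z)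

end Vale.Agent.P252
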