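import Mathlib

/-!
Global solutions of the planar system of P252.
-/

namespace Vale.Agent.P252

open scoped ContDiff NNReal
open Set Metric

section General

variable {V : Type*} [NormedAddCommGroup V] [NormedSpace ℝ V] [CompleteSpace V]

/-- Global existence for bounded Lipschitz vector fields. -/
theorem exists_global_solution (G : V → V) (K L : ℝ≥0) (hK : LipschitzWith K G)
    (hL : ∀ x, ‖G x‖ ≤ L) (v₀ : V) :
    ∃ γ : ℝ → V, γ 0 = v₀ ∧ ∀ t, HasDerivAt γ (G (γ t)) t := by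
  have h1 : ∀ a : ℝ, 0 < a → ∃ γ : ℝ → V, γ 0 = v₀ ∧
      ∀ t ∈ Ioo (-a) a, HasDerivAt γ (G (γ t)) t := by
    intro a ha
    have hm : (0:ℝ) ∈ Icc (-a) a := ⟨by linarith, by linarith⟩
    have hpl : IsPicardLindelof (fun _ => G) (tmin := -a) (tmax := a) ⟨0, hm⟩ v₀
        (L * ⟨a, ha.le⟩) 0 L K := by
      apply IsPicardLindelof.of_time_independent
      · intro x _; exact hL x
      · exact hK.lipschitzOnWith
      · simp
        apply le_of_eq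
        rfl
    obtain ⟨γ, h0, h⟩ := hpl.exists_eq_forall_mem_Icc_hasDerivWithinAt₀
    refine ⟨γ, h0, fun t ht => ?_⟩
    exact (h t (Ioo_subset_Icc_self ht)).hasDerivAt (Icc_mem_nhds ht.1 ht.2)
  choose! γ hγ0 hγ using h1
  have huniq : ∀ a b : ℝ, 0 < a → a ≤ b → EqOn (γ a) (γ b) (Ioo (-a) a) := by
    intro a b ha hab
    have hb : 0 < b := lt_of_lt_of_le ha hab
    apply ODE_solution_unique_of_mem_Ioo (v := fun _ => G) (s := fun _ => univ) (K := K)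
      (t₀ := 0)
    · intro t _; exact hK.lipschitzOnWith
    · exact ⟨by linarith, ha⟩
    · intro t ht; exact ⟨hγ a ha t ht, mem_univ _⟩
    · intro t ht; exact ⟨hγ b hb t ⟨by linarith [ht.1], by linarith [ht.2]⟩, mem_univ _⟩
    · rw [hγ0 a ha, hγ0 b hb]
  refine ⟨fun t => γ (|t| + 1) t, by simpa using hγ0 _ (by norm_num), fun t => ?_⟩
  have hpos : 0 < |t| + 1 := by positivity
  have ht : t ∈ Ioo (-(|t| + 1)) (|t| + 1) := by
    constructor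
    · linarith [neg_abs_le t]
    · linarith [le_abs_self t]
  have hd := hγ (|t| + 1) hpos t ht
  refine hd.congr_of_eventuallyEq ?_
  filter_upwards [Ioo_mem_nhds ht.1 ht.2] with s hs
  have hs' : s ∈ Ioo (-(|s| + 1)) (|s| + 1) := by
    constructor
    · linarith [neg_abs_le s]
    · linarith [le_abs_self s]
  by_cases h : |s| + 1 ≤ |t| + 1
  · exact huniq _ _ (by positivity) h hs'
  · push Not at h
    exact (huniq _ _ hpos h.le hs).symm

end General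

/-- The planar vector field. -/
noncomputable def Pf (k : ℝ) (v : ℝ × ℝ) : ℝ × ℝ :=
  (v.1 * (3 + k * v.2 - 2 * v.1 * (1 - v.2)) / 2,
    (1 - k ^ 2 * v.2 ^ 2) / 2 + 2 * v.1 * v.2 * (1 + v.2))

/-- The trapping region. -/
structure InReg (k : ℝ) (v : ℝ × ℝ) : Prop where
  X_pos : 0 < v.1
  ζ_pos : 0 < v.2
  ζ_lt : v.2 < 1 / 3
  A_pos : 0 < 4 * v.1 * v.2 * (1 + v.2) - (k ^ 2 * v.2 ^ 2 - 1)
  B_pos : 0 < 3 + k * v.2 - 2 * v.1 * (1 - v.2)

lemma contDiff_Pf (k : ℝ) : ContDiff ℝ ∞ (Pf k) := by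
  unfold Pf
  fun_prop

lemma isOpen_reg (k : ℝ) : IsOpen {v : ℝ × ℝ | InReg k v} := by
  have : {v : ℝ × ℝ | InReg k v} = {v | 0 < v.1} ∩ {v | 0 < v.2} ∩ {v | v.2 < 1 / 3} ∩
      {v | 0 < 4 * v.1 * v.2 * (1 + v.2) - (k ^ 2 * v.2 ^ 2 - 1)} ∩
      {v | 0 < 3 + k * v.2 - 2 * v.1 * (1 - v.2)} := by
    ext v
    constructor
    · rintro ⟨h1, h2, h3, h4, h5⟩
      exact ⟨⟨⟨⟨h1, h2⟩, h3⟩, h4⟩, h5⟩
    · rintro ⟨⟨⟨⟨h1, h2⟩, h3⟩, h4⟩, h5⟩
      exact ⟨h1, h2, h3, h4, h5⟩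
  rw [this]
  refine ((((isOpen_lt ?_ ?_).inter (isOpen_lt ?_ ?_)).inter (isOpen_lt ?_ ?_)).inter
    (isOpen_lt ?_ ?_)).inter (isOpen_lt ?_ ?_) <;> fun_prop

lemma InReg.X_lt {k : ℝ} (hk : 9 ≤ k) {v : ℝ × ℝ} (h : InReg k v) : v.1 < k := by
  obtain ⟨h1, h2, h3, h4, h5⟩ := h
  by_contra hc
  push Not at hc
  nlinarith [mul_le_mul hc (show (2:ℝ)/3 ≤ 1 - v.2 by linarith) (by norm_num) (by linarith)]

lemma InReg.norm_le {k : ℝ} (hk : 9 ≤ k) {v : ℝ × ℝ} (h : InReg k v) : ‖v‖ ≤ k := by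
  rw [Prod.norm_def]
  refine max_le ?_ ?_
  · rw [Real.norm_eq_abs, abs_of_pos h.X_pos]; exact (h.X_lt hk).le
  · rw [Real.norm_eq_abs, abs_of_pos h.ζ_pos]; linarith [h.ζ_lt]

/-- A vector field cut off. -/
lemma exists_cutoff (k R : ℝ) (hR : 0 < R) : ∃ (G : ℝ × ℝ → ℝ × ℝ) (K L : ℝ≥0), LipschitzWith K G ∧
    (∀ x, ‖G x‖ ≤ L) ∧ ContDiff ℝ ∞ G ∧ ∀ v, ‖v‖ ≤ R → G v = Pf k v := by
  let f : ContDiffBump (0 : ℝ × ℝ) := ⟨R, R + 1, hR, by linarith⟩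
  have hG : ContDiff ℝ ∞ (fun v => f v • Pf k v) := f.contDiff.smul (contDiff_Pf k)
  have hs : HasCompactSupport (fun v => f v • Pf k v) := f.hasCompactSupport.smul_right
  obtain ⟨K, hK⟩ := ContDiff.lipschitzWith_of_hasCompactSupport hs hG (by simp)
  obtain ⟨C, hC⟩ := hs.exists_bound_of_continuous hG.continuous
  refine ⟨fun v => f v • Pf k v, K, ⟨max C 0, le_max_right _ _⟩, hK, fun x => (hC x).trans ?_, hG, ?_⟩
  · exact le_max_left _ _
  · intro v hv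
    have : f v = 1 := f.one_of_mem_closedBall (by simpa using hv)
    simp [this]

end Vale.Agent.P252
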