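import Mathlib
import Vale.Agent.P252.Global

/-!
Invariance of the trapping region (P252).
-/

namespace Vale.Agent.P252

open scoped ContDiff NNReal
open Set Metric

/-- Weighted monotonicity: if `f' ≥ -K f` on `(0,T)` then `f 0 * exp (-K T) ≤ f T`. -/
lemma lower_bound_of_deriv (f f' : ℝ → ℝ) (K T : ℝ) (hT : 0 ≤ T)
    (hf : ∀ t ∈ Icc 0 T, HasDerivAt f (f' t) t)
    (h : ∀ t ∈ Ioo 0 T, -K * f t ≤ f' t) : f 0 * Real.exp (-K * T) ≤ f T := by
  have hd : ∀ t ∈ Icc 0 T, HasDerivAt (fun t => f t * Real.exp (K * t))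
      (f' t * Real.exp (K * t) + f t * (Real.exp (K * t) * K)) t := by
    intro t ht
    have h1 : HasDerivAt (fun t => Real.exp (K * t)) (Real.exp (K * t) * K) t := by
      have := ((hasDerivAt_id t).const_mul K).exp
      simpa using this
    exact (hf t ht).mul h1
  have hmono : MonotoneOn (fun t => f t * Real.exp (K * t)) (Icc 0 T) := by
    apply monotoneOn_of_deriv_nonneg (convex_Icc 0 T)
    · intro t ht; exact (hd t ht).continuousAt.continuousWithinAt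
    · intro t ht
      rw [interior_Icc] at ht
      exact (hd t (Ioo_subset_Icc_self ht)).differentiableAt.differentiableWithinAt
    · intro t ht
      rw [interior_Icc] at ht
      rw [(hd t (Ioo_subset_Icc_self ht)).deriv]
      have := h t ht
      have he := Real.exp_pos (K * t)
      nlinarith
  have h2 := hmono (left_mem_Icc.2 hT) (right_mem_Icc.2 hT) hT
  simp only [mul_zero, Real.exp_zero, mul_one] at h2
  have h3 : Real.exp (-K * T) = (Real.exp (K * T))⁻¹ := by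
    rw [← Real.exp_neg]; congr 1; ring
  rw [h3]
  have he := Real.exp_pos (K * T)
  rw [← div_eq_mul_inv, div_le_iff₀ he]
  exact h2

theorem trap (k : ℝ) (hk : 9 ≤ k) (G : ℝ × ℝ → ℝ × ℝ) (hG : ∀ v, ‖v‖ ≤ k → G v = Pf k v)
    (γ : ℝ → ℝ × ℝ) (hγ : ∀ t, HasDerivAt γ (G (γ t)) t) (h0 : InReg k (γ 0)) :
    ∀ t, 0 ≤ t → InReg k (γ t) := by
  by_contra hcon
  push Not at hcon
  obtain ⟨t1, ht1, ht1'⟩ := hcon
  have hcont : Continuous γ := continuous_iff_continuousAt.2 fun t => (hγ t).continuousAt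
  set S : Set ℝ := {t | 0 ≤ t ∧ ¬ InReg k (γ t)} with hS
  have hSne : S.Nonempty := ⟨t1, ht1, ht1'⟩
  have hSbdd : BddBelow S := ⟨0, fun t ht => ht.1⟩
  have hSclosed : IsClosed S := by
    have : S = Ici 0 ∩ γ ⁻¹' {v | InReg k v}ᶜ := by
      ext t; simp [hS]
    rw [this]
    exact isClosed_Ici.inter ((isOpen_reg k).isClosed_compl.preimage hcont)
  set T := sInf S with hTdef
  have hTS : T ∈ S := hSclosed.csInf_mem hSne hSbdd
  have hT0 : 0 ≤ T := hTS.1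
  have hbelow : ∀ t, 0 ≤ t → t < T → InReg k (γ t) := by
    intro t ht htT
    by_contra hc
    exact absurd (csInf_le hSbdd (show t ∈ S from ⟨ht, hc⟩)) (not_le.2 htT)
  have hTpos : 0 < T := by
    rcases hT0.lt_or_eq with h | h
    · exact h
    · exfalso; apply hTS.2; rw [← h]; exact h0
  -- derivatives on [0,T)
  have hder : ∀ t, 0 ≤ t → t < T → HasDerivAt γ (Pf k (γ t)) t := by
    intro t ht htT
    rw [← hG _ ((hbelow t ht htT).norm_le hk)]
    exact hγ t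
  have hcl : ‖γ T‖ ≤ k := by
    have hlim : Filter.Tendsto (fun t => ‖γ t‖) (nhdsWithin T (Iio T)) (nhds ‖γ T‖) :=
      ((hcont.norm).tendsto T).mono_left nhdsWithin_le_nhds
    refine le_of_tendsto hlim ?_
    have : Ioo 0 T ∈ nhdsWithin T (Iio T) := Ioo_mem_nhdsLT hTpos
    filter_upwards [this] with t ht
    exact (hbelow t ht.1.le ht.2).norm_le hk
  have hderT : ∀ t ∈ Icc 0 T, HasDerivAt γ (Pf k (γ t)) t := by
    intro t ht
    rcases ht.2.lt_or_eq with h | h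
    · exact hder t ht.1 h
    · rw [h, ← hG _ hcl]; exact hγ T
  have hX : ∀ t ∈ Icc 0 T, HasDerivAt (fun t => (γ t).1) (Pf k (γ t)).1 t :=
    fun t ht => (hderT t ht).fst
  have hζ : ∀ t ∈ Icc 0 T, HasDerivAt (fun t => (γ t).2) (Pf k (γ t)).2 t :=
    fun t ht => (hderT t ht).snd
  -- the functions A and B
  set X : ℝ → ℝ := fun t => (γ t).1 with hXdef
  set Z : ℝ → ℝ := fun t => (γ t).2 with hZdef
  have hX' : ∀ t ∈ Icc 0 T, HasDerivAt X (X t * (3 + k * Z t - 2 * X t * (1 - Z t)) / 2) t := hX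
  have hZ' : ∀ t ∈ Icc 0 T, HasDerivAt Z ((1 - k ^ 2 * Z t ^ 2) / 2 + 2 * X t * Z t * (1 + Z t)) t :=
    hζ
  have hA : ∀ t ∈ Icc 0 T, HasDerivAt (fun t => 4 * X t * Z t * (1 + Z t) - (k ^ 2 * Z t ^ 2 - 1))
      (4 * ((X t * (3 + k * Z t - 2 * X t * (1 - Z t)) / 2) * Z t * (1 + Z t)
        + X t * ((1 - k ^ 2 * Z t ^ 2) / 2 + 2 * X t * Z t * (1 + Z t)) * (1 + 2 * Z t))
        - k ^ 2 * (2 * Z t * ((1 - k ^ 2 * Z t ^ 2) / 2 + 2 * X t * Z t * (1 + Z t)))) t := by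
    intro t ht
    have h1 := hX' t ht
    have h2 := hZ' t ht
    have h3 := ((((h1.const_mul 4).mul h2).mul (h2.const_add 1))).sub
      (((h2.pow 2).const_mul (k ^ 2)).sub_const 1)
    refine h3.congr_deriv ?_
    simp only [Pi.mul_apply, Nat.cast_ofNat, Nat.add_one_sub_one, pow_one]
    ring
  have hB : ∀ t ∈ Icc 0 T, HasDerivAt (fun t => 3 + k * Z t - 2 * X t * (1 - Z t))
      (k * ((1 - k ^ 2 * Z t ^ 2) / 2 + 2 * X t * Z t * (1 + Z t))
        - 2 * (X t * (3 + k * Z t - 2 * X t * (1 - Z t)) / 2) * (1 - Z t)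
        + 2 * X t * ((1 - k ^ 2 * Z t ^ 2) / 2 + 2 * X t * Z t * (1 + Z t))) t := by
    intro t ht
    have h1 := hX' t ht
    have h2 := hZ' t ht
    have h3 := ((h2.const_mul k).const_add 3).sub ((h1.const_mul 2).mul (h2.const_sub 1))
    refine h3.congr_deriv ?_
    ring
  have kX : X 0 * Real.exp (-0 * T) ≤ X T := by
    apply lower_bound_of_deriv X _ 0 T hT0 hX'
    intro t ht
    obtain ⟨h1, h2, h3, h4, h5⟩ := hbelow t ht.1.le ht.2
    have : 0 < X t * (3 + k * Z t - 2 * X t * (1 - Z t)) := mul_pos h1 h5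
    linarith
  have kZ : Z 0 * Real.exp (-0 * T) ≤ Z T := by
    apply lower_bound_of_deriv Z _ 0 T hT0 hZ'
    intro t ht
    obtain ⟨h1, h2, h3, h4, h5⟩ := hbelow t ht.1.le ht.2
    have : 0 < 4 * X t * Z t * (1 + Z t) - (k ^ 2 * Z t ^ 2 - 1) := h4
    nlinarith
  have kA := lower_bound_of_deriv _ _ (k ^ 2) T hT0 hA (by
    intro t ht
    obtain ⟨h1, h2, h3, h4, h5⟩ := hbelow t ht.1.le ht.2
    have h4' : 0 < 4 * X t * Z t * (1 + Z t) - (k ^ 2 * Z t ^ 2 - 1) := h4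
    have h5' : 0 < 3 + k * Z t - 2 * X t * (1 - Z t) := h5
    have h1' : 0 < X t := h1
    have h2' : 0 < Z t := h2
    have h3' : Z t < 1 / 3 := h3
    have e : 4 * ((X t * (3 + k * Z t - 2 * X t * (1 - Z t)) / 2) * Z t * (1 + Z t)
        + X t * ((1 - k ^ 2 * Z t ^ 2) / 2 + 2 * X t * Z t * (1 + Z t)) * (1 + 2 * Z t))
        - k ^ 2 * (2 * Z t * ((1 - k ^ 2 * Z t ^ 2) / 2 + 2 * X t * Z t * (1 + Z t)))
        - (-k ^ 2 * (4 * X t * Z t * (1 + Z t) - (k ^ 2 * Z t ^ 2 - 1))) =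
        2 * X t * Z t * (1 + Z t) * (3 + k * Z t - 2 * X t * (1 - Z t)) +
        (2 * X t * (1 + 2 * Z t) + k ^ 2 * (1 - Z t)) *
          (4 * X t * Z t * (1 + Z t) - (k ^ 2 * Z t ^ 2 - 1)) := by ring
    have e1 : 0 ≤ 2 * X t * Z t * (1 + Z t) * (3 + k * Z t - 2 * X t * (1 - Z t)) := by positivity
    have e2 : 0 ≤ (2 * X t * (1 + 2 * Z t) + k ^ 2 * (1 - Z t)) *
          (4 * X t * Z t * (1 + Z t) - (k ^ 2 * Z t ^ 2 - 1)) := by
      have : 0 ≤ 1 - Z t := by linarith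
      positivity
    linarith)
  have kB := lower_bound_of_deriv _ _ k T hT0 hB (by
    intro t ht
    have hXlt := (hbelow t ht.1.le ht.2).X_lt hk
    obtain ⟨h1, h2, h3, h4, h5⟩ := hbelow t ht.1.le ht.2
    have h4' : 0 < 4 * X t * Z t * (1 + Z t) - (k ^ 2 * Z t ^ 2 - 1) := h4
    have h5' : 0 < 3 + k * Z t - 2 * X t * (1 - Z t) := h5
    have h1' : 0 < X t := h1
    have h2' : 0 < Z t := h2
    have h3' : Z t < 1 / 3 := h3
    have hXlt' : X t < k := hXlt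
    have e : (k * ((1 - k ^ 2 * Z t ^ 2) / 2 + 2 * X t * Z t * (1 + Z t))
        - 2 * (X t * (3 + k * Z t - 2 * X t * (1 - Z t)) / 2) * (1 - Z t)
        + 2 * X t * ((1 - k ^ 2 * Z t ^ 2) / 2 + 2 * X t * Z t * (1 + Z t)))
        - (-k * (3 + k * Z t - 2 * X t * (1 - Z t))) =
        (k + 2 * X t) / 2 * (4 * X t * Z t * (1 + Z t) - (k ^ 2 * Z t ^ 2 - 1)) +
        ((k - X t) + X t * Z t) * (3 + k * Z t - 2 * X t * (1 - Z t)) := by ring
    have e1 : 0 ≤ (k + 2 * X t) / 2 * (4 * X t * Z t * (1 + Z t) - (k ^ 2 * Z t ^ 2 - 1)) := by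
      positivity
    have e2 : 0 ≤ ((k - X t) + X t * Z t) * (3 + k * Z t - 2 * X t * (1 - Z t)) := by
      have : 0 ≤ k - X t := by linarith
      positivity
    linarith)
  -- conclusion
  have hX0 : 0 < X 0 := h0.X_pos
  have hZ0 : 0 < Z 0 := h0.ζ_pos
  have hXT : 0 < X T := lt_of_lt_of_le (by positivity) kX
  have hZT : 0 < Z T := lt_of_lt_of_le (by positivity) kZ
  have hAT : 0 < 4 * X T * Z T * (1 + Z T) - (k ^ 2 * Z T ^ 2 - 1) :=
    lt_of_lt_of_le (mul_pos h0.A_pos (Real.exp_pos _)) kA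
  have hBT : 0 < 3 + k * Z T - 2 * X T * (1 - Z T) :=
    lt_of_lt_of_le (mul_pos h0.B_pos (Real.exp_pos _)) kB
  have hZle : Z T ≤ 1 / 3 := by
    have hlim : Filter.Tendsto Z (nhdsWithin T (Iio T)) (nhds (Z T)) :=
      ((continuous_snd.comp hcont).tendsto T).mono_left nhdsWithin_le_nhds
    refine le_of_tendsto hlim ?_
    have : Ioo 0 T ∈ nhdsWithin T (Iio T) := Ioo_mem_nhdsLT hTpos
    filter_upwards [this] with t ht
    exact (hbelow t ht.1.le ht.2).ζ_lt.le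
  have hZne : Z T ≠ 1 / 3 := by
    intro h
    rw [h] at hAT hBT
    nlinarith
  exact hTS.2 ⟨hXT, hZT, lt_of_le_of_ne hZle hZne, hAT, hBT⟩

/-- Global forward solutions in the trapping region. -/
theorem exists_forward (k : ℝ) (hk : 9 ≤ k) (v₀ : ℝ × ℝ) (h0 : InReg k v₀) :
    ∃ (G : ℝ × ℝ → ℝ × ℝ) (K : ℝ≥0), LipschitzWith K G ∧ (∀ v, ‖v‖ ≤ k → G v = Pf k v) ∧
    ∃ γ : ℝ → ℝ × ℝ, γ 0 = v₀ ∧ ContDiff ℝ ∞ γ ∧ (∀ t, HasDerivAt γ (G (γ t)) t) ∧
      ∀ t, 0 ≤ t → InReg k (γ t) ∧ HasDerivAt γ (Pf k (γ t)) t := by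
  obtain ⟨G, K, L, hK, hL, hGs, hG⟩ := exists_cutoff k k (by linarith)
  obtain ⟨γ, hγ0, hγ⟩ := exists_global_solution G K L hK hL v₀
  have htr := trap k hk G hG γ hγ (hγ0 ▸ h0)
  refine ⟨G, K, hK, hG, γ, hγ0, ?_, hγ, fun t ht => ⟨htr t ht, ?_⟩⟩
  · rw [contDiff_iff_contDiffAt]
    intro t
    have : ContDiffOn ℝ ∞ γ (Icc (t - 1) (t + 1)) := by
      have := ODE.contDiffOn_enat_Icc_of_hasDerivWithinAt (f := fun _ => G) (u := univ) (n := ⊤)
        (tmin := t - 1) (tmax := t + 1) (α := γ) ?_ ?_ ?_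
      · exact this
      · exact (hGs.comp contDiff_snd).contDiffOn
      · intro s _; exact (hγ s).hasDerivWithinAt
      · intro s _; exact mem_univ _
    exact this.contDiffAt (Icc_mem_nhds (by linarith) (by linarith))
  · rw [← hG _ ((htr t ht).norm_le hk)]
    exact hγ t

end Vale.Agent.P252
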