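import Mathlib
import Vale.Agent.P252.Profile
import Vale.Agent.P252.Trap

/-!
From the local solution at `z = 0` to the global profile (P252).
-/

namespace Vale.Agent.P252

open scoped ContDiff NNReal Topology
open Set Metric Filter

/-- Local solutions of the singular system near `z = 0`. -/
def LocalSol (k : ℝ) : Prop :=
  ∃ δ : ℝ, 0 < δ ∧ ∃ x e : ℝ → ℝ, x 0 = 1 ∧ ∀ z : ℝ, |z| < δ →
    ContDiffAt ℝ ∞ x z ∧ ContDiffAt ℝ ∞ e z ∧
    HasDerivAt x (x z * (e z - 2 * x z * (k - 1 - z * e z) / k) / 4) z ∧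
    ∃ e' : ℝ, HasDerivAt e e' z ∧
      2 * z * e' = -(k+2) * e z - (k/2) * z * e z ^ 2
        + (2/k) * x z * (1 + z * e z) * (k + 1 + z * e z)

/-- Global version. -/
theorem global_of_local (k : ℝ) (hk : 9 ≤ k) (h : LocalSol k) :
    ∃ η : ℝ, 0 < η ∧ ∃ x e : ℝ → ℝ, x 0 = 1 ∧ ∀ z : ℝ, -η < z →
    (ContDiffAt ℝ ∞ x z ∧ ContDiffAt ℝ ∞ e z ∧
    HasDerivAt x (x z * (e z - 2 * x z * (k - 1 - z * e z) / k) / 4) z ∧
    ∃ e' : ℝ, HasDerivAt e e' z ∧
      2 * z * e' = -(k+2) * e z - (k/2) * z * e z ^ 2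
        + (2/k) * x z * (1 + z * e z) * (k + 1 + z * e z)) ∧
    (0 < z → InReg k (z * x z, (1 + z * e z) / k)) := by
  obtain ⟨δ, hδ, x₁, e₁, hx0, hloc⟩ := h
  have hk0 : 0 < k := by linarith
  -- value of e at 0
  have h00 := hloc 0 (by simpa using hδ)
  have he0 : e₁ 0 = 2 * (k + 1) / (k * (k + 2)) := by
    obtain ⟨_, _, _, e', _, h2⟩ := h00
    rw [hx0] at h2
    field_simp
    field_simp at h2
    linarith
  have hxc : ContinuousAt x₁ 0 := h00.1.continuousAt
  have hec : ContinuousAt e₁ 0 := h00.2.1.continuousAt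
  -- the local curve lies in the region for small z
  have hreg : ∀ᶠ z in 𝓝[>] (0:ℝ), InReg k (z * x₁ z, (1 + z * e₁ z) / k) := by
    have t1 : Tendsto x₁ (𝓝[>] 0) (𝓝 1) := by
      have := hxc.tendsto.mono_left (nhdsWithin_le_nhds (s := Ioi 0)); rwa [hx0] at this
    have t2 : Tendsto e₁ (𝓝[>] 0) (𝓝 (2 * (k + 1) / (k * (k + 2)))) := by
      have := hec.tendsto.mono_left (nhdsWithin_le_nhds (s := Ioi 0)); rwa [he0] at this
    have t0 : Tendsto (fun z : ℝ => z) (𝓝[>] 0) (𝓝 0) := tendsto_id.mono_left nhdsWithin_le_nhds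
    have tζ : Tendsto (fun z => (1 + z * e₁ z) / k) (𝓝[>] 0) (𝓝 ((1 + 0 * (2 * (k + 1) / (k * (k + 2)))) / k)) :=
      ((t0.mul t2).const_add 1).div_const k
    have tX : Tendsto (fun z => z * x₁ z) (𝓝[>] 0) (𝓝 (0 * 1)) := t0.mul t1
    have tB : Tendsto (fun z => 3 + k * ((1 + z * e₁ z) / k) - 2 * (z * x₁ z) * (1 - (1 + z * e₁ z) / k))
        (𝓝[>] 0) (𝓝 (3 + k * ((1 + 0 * (2 * (k + 1) / (k * (k + 2)))) / k)
          - 2 * (0 * 1) * (1 - (1 + 0 * (2 * (k + 1) / (k * (k + 2)))) / k))) :=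
      ((tζ.const_mul k).const_add 3).sub ((tX.const_mul 2).mul (tζ.const_sub 1))
    have tA : Tendsto (fun z => 4 * x₁ z * ((1 + z * e₁ z) / k) * (1 + (1 + z * e₁ z) / k)
        - 2 * e₁ z - z * (e₁ z) ^ 2) (𝓝[>] 0)
        (𝓝 (4 * 1 * ((1 + 0 * (2 * (k + 1) / (k * (k + 2)))) / k)
          * (1 + (1 + 0 * (2 * (k + 1) / (k * (k + 2)))) / k)
          - 2 * (2 * (k + 1) / (k * (k + 2))) - 0 * (2 * (k + 1) / (k * (k + 2))) ^ 2)) :=
      (((((t1.const_mul 4).mul tζ).mul (tζ.const_add 1))).sub (t2.const_mul 2)).sub (t0.mul (t2.pow 2))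
    have p1 : ∀ᶠ z in 𝓝[>] (0:ℝ), 0 < x₁ z := t1.eventually (lt_mem_nhds (by norm_num))
    have p2 : ∀ᶠ z in 𝓝[>] (0:ℝ), 0 < (1 + z * e₁ z) / k :=
      tζ.eventually (lt_mem_nhds (by simp; exact hk0))
    have p3 : ∀ᶠ z in 𝓝[>] (0:ℝ), (1 + z * e₁ z) / k < 1 / 3 := by
      refine tζ.eventually (gt_mem_nhds ?_)
      simp only [zero_mul, add_zero]
      rw [div_lt_div_iff₀ hk0 (by norm_num)]
      linarith
    have p4 := tB.eventually (lt_mem_nhds (a := 0) (by simp; field_simp; norm_num))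
    have p5 := tA.eventually (lt_mem_nhds (a := 0) (by
      simp only [zero_mul, add_zero, mul_one, sub_zero]
      have : 4 * (1 / k) * (1 + 1 / k) - 2 * (2 * (k + 1) / (k * (k + 2)))
        = 8 * (k + 1) / (k ^ 2 * (k + 2)) := by field_simp; ring
      rw [this]; positivity))
    have p6 : ∀ᶠ z in 𝓝[>] (0:ℝ), 0 < z := eventually_mem_nhdsWithin
    filter_upwards [p1, p2, p3, p4, p5, p6] with z q1 q2 q3 q4 q5 q6
    refine ⟨mul_pos q6 q1, q2, q3, ?_, q4⟩
    have : 4 * (z * x₁ z) * ((1 + z * e₁ z) / k) * (1 + (1 + z * e₁ z) / k)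
        - (k ^ 2 * ((1 + z * e₁ z) / k) ^ 2 - 1) =
        z * (4 * x₁ z * ((1 + z * e₁ z) / k) * (1 + (1 + z * e₁ z) / k)
        - 2 * e₁ z - z * (e₁ z) ^ 2) := by
      field_simp; ring
    show 0 < 4 * (z * x₁ z) * ((1 + z * e₁ z) / k) * (1 + (1 + z * e₁ z) / k)
        - (k ^ 2 * ((1 + z * e₁ z) / k) ^ 2 - 1)
    rw [this]
    exact mul_pos q6 q5
  obtain ⟨ε, hε, hεreg⟩ : ∃ ε > 0, ∀ z, 0 < z → z < ε → InReg k (z * x₁ z, (1 + z * e₁ z) / k) := by
    rw [eventually_nhdsWithin_iff, Metric.eventually_nhds_iff] at hreg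
    obtain ⟨ε, hε, h⟩ := hreg
    refine ⟨ε, hε, fun z hz hz' => h (by rw [Real.dist_eq, sub_zero, abs_of_pos hz]; exact hz') hz⟩
  -- choose z₀
  obtain ⟨z₀, hz0, hz0δ, hz0ε⟩ : ∃ z₀ : ℝ, 0 < z₀ ∧ z₀ < δ ∧ z₀ < ε :=
    ⟨min δ ε / 2, by positivity, by linarith [min_le_left δ ε, lt_min hδ hε],
      by linarith [min_le_right δ ε, lt_min hδ hε]⟩
  set v₁ : ℝ → ℝ × ℝ := fun z => (z * x₁ z, (1 + z * e₁ z) / k) with hv1
  have hv0 : InReg k (v₁ z₀) := hεreg z₀ hz0 hz0ε
  obtain ⟨G, K, hK, hG, γ, hγ0, hγs, hγG, hγ⟩ := exists_forward k hk (v₁ z₀) hv0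
  -- derivative of v₁
  have hv1d : ∀ z, 0 < z → z < δ → HasDerivAt v₁ ((1 / (2 * z)) • Pf k (v₁ z)) z := by
    intro z hz hzδ
    obtain ⟨_, _, hx, e', he, hee⟩ := hloc z (by rw [abs_of_pos hz]; exact hzδ)
    have h1 : HasDerivAt (fun z => z * x₁ z)
        (1 * x₁ z + z * (x₁ z * (e₁ z - 2 * x₁ z * (k - 1 - z * e₁ z) / k) / 4)) z :=
      (hasDerivAt_id z).mul hx
    have h2 : HasDerivAt (fun z => (1 + z * e₁ z) / k) ((1 * e₁ z + z * e') / k) z :=
      (((hasDerivAt_id z).mul he).const_add 1).div_const k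
    have he2 : e' = (-(k+2) * e₁ z - (k/2) * z * e₁ z ^ 2
        + (2/k) * x₁ z * (1 + z * e₁ z) * (k + 1 + z * e₁ z)) / (2 * z) := by
      field_simp
      field_simp at hee
      linarith
    refine (h1.prodMk h2).congr_deriv ?_
    rw [he2]
    simp only [Pf, hv1, Prod.smul_mk, smul_eq_mul]
    ext
    · simp only
      field_simp
      ring
    · simp only
      field_simp
      ring
  -- the forward curve in the variable z
  set v₂ : ℝ → ℝ × ℝ := fun z => γ (1 / 2 * Real.log (z / z₀)) with hv2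
  have hs : ∀ z : ℝ, 0 < z → HasDerivAt (fun z => 1 / 2 * Real.log (z / z₀)) (1 / (2 * z)) z := by
    intro z hz
    have h1 : HasDerivAt (fun z : ℝ => z / z₀) (1 / z₀) z := (hasDerivAt_id z).div_const z₀
    have h2 := (h1.log (by positivity)).const_mul (1 / 2)
    refine h2.congr_deriv ?_
    field_simp
  have hv2G : ∀ z, 0 < z → HasDerivAt v₂ ((1 / (2 * z)) • G (v₂ z)) z := by
    intro z hz
    exact (hγG _).scomp z (hs z hz)
  have hs0 : ∀ z : ℝ, z₀ ≤ z → 0 ≤ 1 / 2 * Real.log (z / z₀) := by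
    intro z hz
    have : 0 ≤ Real.log (z / z₀) := Real.log_nonneg (by rw [le_div_iff₀ hz0]; linarith)
    positivity
  have hv2R : ∀ z, z₀ ≤ z → InReg k (v₂ z) := fun z hz => (hγ _ (hs0 z hz)).1
  have hv2P : ∀ z, z₀ ≤ z → HasDerivAt v₂ ((1 / (2 * z)) • Pf k (v₂ z)) z := by
    intro z hz
    rw [← hG _ ((hv2R z hz).norm_le hk)]
    exact hv2G z (by linarith)
  have hv20 : v₂ z₀ = v₁ z₀ := by
    simp only [hv2]
    rw [div_self hz0.ne', Real.log_one, mul_zero, hγ0]
  -- the two curves agree near z₀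
  have hagree : v₁ =ᶠ[𝓝 z₀] v₂ := by
    have hnear : ∀ᶠ z in 𝓝 z₀, z₀ / 2 < z ∧ z < δ ∧ z < ε :=
      (lt_mem_nhds (by linarith)).and ((gt_mem_nhds hz0δ).and (gt_mem_nhds hz0ε))
    obtain ⟨K', hK'⟩ : ∃ K' : ℝ≥0, (K' : ℝ) = 1 / z₀ * K :=
      ⟨Real.toNNReal (1 / z₀ * K), Real.coe_toNNReal _ (by positivity)⟩
    refine ODE_solution_unique_of_eventually (v := fun z w => (1 / (2 * z)) • G w)
      (s := fun _ => univ) (K := K') ?_ ?_ ?_ hv20.symm
    · filter_upwards [hnear] with z hz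
      have hlip : LipschitzWith K' (fun w => (1 / (2 * z)) • G w) := by
        refine LipschitzWith.of_dist_le_mul fun a b => ?_
        rw [dist_smul₀, hK', mul_assoc]
        have h1 : ‖(1 / (2 * z) : ℝ)‖ ≤ 1 / z₀ := by
          have hz2 : 0 < z := by linarith [hz.1]
          rw [Real.norm_eq_abs, abs_of_pos (by positivity)]
          apply one_div_le_one_div_of_le hz0
          linarith [hz.1]
        have h2 := hK.dist_le_mul a b
        exact mul_le_mul h1 h2 dist_nonneg (by positivity)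
      exact hlip.lipschitzOnWith
    · filter_upwards [hnear] with z hz
      have hz2 : 0 < z := by linarith [hz.1]
      refine ⟨?_, mem_univ _⟩
      show HasDerivAt v₁ ((1 / (2 * z)) • G (v₁ z)) z
      rw [hG _ ((hεreg z hz2 hz.2.2).norm_le hk)]
      exact hv1d z hz2 hz.2.1
    · filter_upwards [hnear] with z hz
      have hz2 : 0 < z := by linarith [hz.1]
      exact ⟨hv2G z hz2, mem_univ _⟩
  -- the glued functions
  set x : ℝ → ℝ := fun z => if z < z₀ then x₁ z else (v₂ z).1 / z with hxdef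
  set e : ℝ → ℝ := fun z => if z < z₀ then e₁ z else (k * (v₂ z).2 - 1) / z with hedef
  have hev1 : ∀ z, z ≤ z₀ → x =ᶠ[𝓝 z] x₁ ∧ e =ᶠ[𝓝 z] e₁ := by
    intro z hz
    rcases hz.lt_or_eq with h | h
    · constructor
      · filter_upwards [Iio_mem_nhds h] with t ht
        simp only [hxdef]; rw [if_pos (show t < z₀ from ht)]
      · filter_upwards [Iio_mem_nhds h] with t ht
        simp only [hedef]; rw [if_pos (show t < z₀ from ht)]
    · rw [h]
      constructor
      · filter_upwards [hagree, lt_mem_nhds hz0] with t ht ht0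
        simp only [hxdef]
        split_ifs with hc
        · rfl
        · rw [← ht]; simp only [hv1]; field_simp
      · filter_upwards [hagree, lt_mem_nhds hz0] with t ht ht0
        simp only [hedef]
        split_ifs with hc
        · rfl
        · rw [← ht]; simp only [hv1]; field_simp; ring
  have hev2 : ∀ z, z₀ < z → x =ᶠ[𝓝 z] (fun z => (v₂ z).1 / z) ∧
      e =ᶠ[𝓝 z] (fun z => (k * (v₂ z).2 - 1) / z) := by
    intro z hz
    constructor
    · filter_upwards [Ioi_mem_nhds hz] with t ht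
      simp only [hxdef]; rw [if_neg (not_lt.2 (le_of_lt ht))]
    · filter_upwards [Ioi_mem_nhds hz] with t ht
      simp only [hedef]; rw [if_neg (not_lt.2 (le_of_lt ht))]
  refine ⟨δ, hδ, x, e, ?_, ?_⟩
  · rw [(hev1 0 hz0.le).1.eq_of_nhds]; exact hx0
  intro z hz
  by_cases hzz : z ≤ z₀
  · obtain ⟨g1, g2⟩ := hev1 z hzz
    have hzabs : |z| < δ := by rw [abs_lt]; exact ⟨hz, by linarith⟩
    obtain ⟨c1, c2, c3, e', c4, c5⟩ := hloc z hzabs
    have ex : x z = x₁ z := g1.eq_of_nhds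
    have ee : e z = e₁ z := g2.eq_of_nhds
    refine ⟨⟨c1.congr_of_eventuallyEq g1, c2.congr_of_eventuallyEq g2, ?_, e', ?_, ?_⟩, ?_⟩
    · rw [ex, ee]; exact c3.congr_of_eventuallyEq g1
    · exact c4.congr_of_eventuallyEq g2
    · rw [ex, ee]; exact c5
    · intro hzpos
      rw [ex, ee]
      exact hεreg z hzpos (by linarith)
  · push Not at hzz
    obtain ⟨g1, g2⟩ := hev2 z hzz
    have hzpos : 0 < z := by linarith
    have ex : x z = (v₂ z).1 / z := g1.eq_of_nhds
    have ee : e z = (k * (v₂ z).2 - 1) / z := g2.eq_of_nhds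
    have hd := hv2P z hzz.le
    have hX : HasDerivAt (fun z => (v₂ z).1) ((1 / (2 * z)) • Pf k (v₂ z)).1 z := hd.fst
    have hZ : HasDerivAt (fun z => (v₂ z).2) ((1 / (2 * z)) • Pf k (v₂ z)).2 z := hd.snd
    have hv2s : ContDiffAt ℝ ∞ v₂ z := by
      apply hγs.contDiffAt.comp z
      apply ContDiffAt.mul contDiffAt_const
      apply ContDiffAt.log
      · exact contDiffAt_id.div_const z₀
      · positivity
    have hxd : HasDerivAt x (x z * (e z - 2 * x z * (k - 1 - z * e z) / k) / 4) z := by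
      have h1 := (hX.div (hasDerivAt_id z) hzpos.ne').congr_of_eventuallyEq g1
      refine h1.congr_deriv ?_
      rw [ex, ee]
      simp only [Pf, Prod.smul_mk, smul_eq_mul, id]
      field_simp
      ring
    refine ⟨⟨?_, ?_, hxd, _, ((((hZ.const_mul k).sub_const 1).div (hasDerivAt_id z)
        hzpos.ne').congr_of_eventuallyEq g2), ?_⟩, ?_⟩
    · apply ContDiffAt.congr_of_eventuallyEq _ g1
      exact (contDiffAt_fst.comp z hv2s).div contDiffAt_id hzpos.ne'
    · apply ContDiffAt.congr_of_eventuallyEq _ g2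
      exact ((contDiffAt_const.mul (contDiffAt_snd.comp z hv2s)).sub contDiffAt_const).div
        contDiffAt_id hzpos.ne'
    · rw [ex, ee]
      simp only [Pf, Prod.smul_mk, smul_eq_mul, id]
      field_simp
      ring
    · intro _
      rw [ex, ee]
      have h1 : z * ((v₂ z).1 / z) = (v₂ z).1 := by field_simp
      have h2 : (1 + z * ((k * (v₂ z).2 - 1) / z)) / k = (v₂ z).2 := by field_simp; ring
      rw [h1, h2]
      exact hv2R z hzz.le

/-- The profile from the local solution. -/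
theorem profile_of_local (k : ℕ) (hk : 9 ≤ k) (h : LocalSol (k : ℝ)) : Nonempty (Profile k) := by
  have hk' : (9 : ℝ) ≤ (k : ℝ) := by exact_mod_cast hk
  have hk0 : (0 : ℝ) < (k : ℝ) := by linarith
  obtain ⟨η, hη, x, e, hx0, hall⟩ := global_of_local (k : ℝ) hk' h
  have hxs : ContDiffOn ℝ ∞ x (Ioi (-η)) := fun z hz => (hall z hz).1.1.contDiffWithinAt
  have hxc : ContinuousOn x (Ioi (-η)) := hxs.continuousOn
  have hIder : ∀ z ∈ Ioi (-η), HasDerivAt (fun z => ∫ t in (0:ℝ)..z, x t) (x z) z := by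
    intro z hz
    apply intervalIntegral.integral_hasDerivAt_right
    · apply ContinuousOn.intervalIntegrable
      apply hxc.mono
      intro t ht
      have h0 : (0:ℝ) ∈ Ioi (-η) := by simp [hη]
      exact (convex_Ioi (-η)).ordConnected.uIcc_subset h0 hz ht
    · exact hxc.stronglyMeasurableAtFilter isOpen_Ioi z hz
    · exact (hall z hz).1.1.continuousAt
  have hIs : ContDiffOn ℝ ∞ (fun z => ∫ t in (0:ℝ)..z, x t) (Ioi (-η)) := by
    rw [contDiffOn_infty_iff_deriv_of_isOpen isOpen_Ioi]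
    refine ⟨fun z hz => (hIder z hz).differentiableAt.differentiableWithinAt, ?_⟩
    exact hxs.congr fun z hz => (hIder z hz).deriv
  have hmem : ∀ z : ℝ, 0 ≤ z → z ∈ Ioi (-η) := fun z hz => by simp; linarith
  refine ⟨⟨x, fun z => x z * (1 + z * e z) / k + e z / 2, fun z => x z * (1 + z * e z) / k,
    fun z => Real.exp (∫ t in (0:ℝ)..z, x t), ?_, ?_, ?_, ?_, ?_, ?_, ?_, ?_⟩⟩
  · intro z hz
    exact (hIs.contDiffAt (isOpen_Ioi.mem_nhds (hmem z hz))).exp
  · intro z _; exact Real.exp_pos _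
  · intro z hz
    rcases hz.lt_or_eq with h | h
    · have := ((hall z (hmem z hz)).2 h).X_pos
      exact (mul_pos_iff_of_pos_left h).1 this
    · rw [← h, hx0]; norm_num
  · intro z hz
    rcases hz.lt_or_eq with h | h
    · obtain ⟨h1, h2, h3, h4, h5⟩ := (hall z (hmem z hz)).2 h
      have h1' : 0 < z * x z := h1
      have h2' : 0 < (1 + z * e z) / k := h2
      have h6 : 0 < 1 + z * e z := by
        have := mul_pos h2' hk0
        rwa [div_mul_cancel₀ _ hk0.ne'] at this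
      have : 1 + z * (x z * (1 + z * e z) / k + e z / 2) =
        1 / 2 + (1 + z * e z) / 2 + z * x z * ((1 + z * e z) / k) := by ring
      rw [this]
      positivity
    · rw [← h]; norm_num
  · intro z hz
    have := (hIder z (hmem z hz)).exp
    refine this.congr_deriv ?_
    ring
  · intro z hz
    refine (hall z (hmem z hz)).1.2.2.1.congr_deriv ?_
    field_simp
    ring
  · intro z hz
    obtain ⟨_, _, hx, e', he, hee⟩ := (hall z (hmem z hz)).1
    have hze : HasDerivAt (fun z => 1 + z * e z) (1 * e z + z * e') z :=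
      ((hasDerivAt_id z).mul he).const_add 1
    have hy := ((hx.mul hze).div_const (k : ℝ)).add (he.div_const 2)
    have hzy := (hasDerivAt_id z).mul hy
    refine hzy.congr_deriv ?_
    simp only [Pi.mul_apply, Pi.add_apply, id]
    field_simp
    field_simp at hee
    linear_combination (4 * (2 * z * x z + k)) * hee
  · intro z hz
    obtain ⟨_, _, hx, e', he, hee⟩ := (hall z (hmem z hz)).1
    have hze : HasDerivAt (fun z => 1 + z * e z) (1 * e z + z * e') z :=
      ((hasDerivAt_id z).mul he).const_add 1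
    refine ⟨_, (hx.mul hze).div_const (k : ℝ), ?_⟩
    field_simp
    field_simp at hee
    linear_combination (4 * z * x z) * hee

end Vale.Agent.P252
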