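import Mathlib

/-!
Definitions for the affine Bernstein problem (P252).
-/

namespace Vale.Agent.P252

open scoped ContDiff

/-- Euclidean space of dimension `n`. -/
abbrev E (n : ℕ) := EuclideanSpace ℝ (Fin n)

/-- The `i`-th partial derivative of `u`. -/
noncomputable def pd {n : ℕ} (i : Fin n) (u : E n → ℝ) : E n → ℝ :=
  fun x => fderiv ℝ u x (EuclideanSpace.single i 1)

/-- The Hessian matrix `D²u` at `x`. -/
noncomputable def hess {n : ℕ} (u : E n → ℝ) (x : E n) : Matrix (Fin n) (Fin n) ℝ :=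
  Matrix.of fun i j => pd i (pd j u) x

/-- The function `w = (det D²u)^(-(n+1)/(n+2))`. -/
noncomputable def wfun {n : ℕ} (u : E n → ℝ) : E n → ℝ :=
  fun x => (hess u x).det ^ (-((n : ℝ) + 1) / ((n : ℝ) + 2))

/-- `u` satisfies the affine maximal equation `∑ U^{ij} ∂ᵢⱼ w = 0` at `x`, where
`U^{ij} = det(D²u) ((D²u)⁻¹)ᵢⱼ`. -/
def AffineMaximalAt {n : ℕ} (u : E n → ℝ) (x : E n) : Prop :=
  ∑ i : Fin n, ∑ j : Fin n,
    ((hess u x).det * (hess u x)⁻¹ i j) * pd i (pd j (wfun u)) x = 0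

/-- The length of the curve `γ` (restricted to `[0,1]`) for the metric
`g_{ij} = δ_{ij} + u_i u_j` induced on the graph of `u`. -/
noncomputable def graphLength {n : ℕ} (u : E n → ℝ) (γ : ℝ → E n) : ℝ :=
  ∫ t in (0 : ℝ)..1, Real.sqrt (‖deriv γ t‖ ^ 2 + (fderiv ℝ u (γ t) (deriv γ t)) ^ 2)

/-- The Riemannian distance of the graph of `u` over `Ω` (in the coordinates of `Ω`): the infimum
of the lengths of the continuously differentiable curves in `Ω` from `x` to `y`. -/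
noncomputable def graphDist {n : ℕ} (Ω : Set (E n)) (u : E n → ℝ) (x y : E n) : ℝ :=
  sInf {L : ℝ | ∃ γ : ℝ → E n, ContDiff ℝ 1 γ ∧ (∀ t ∈ Set.Icc (0 : ℝ) 1, γ t ∈ Ω) ∧
    γ 0 = x ∧ γ 1 = y ∧ L = graphLength u γ}

/-- The graph of `u` over `Ω` is complete for the induced Euclidean metric: every Cauchy sequence
converges. -/
def EuclideanComplete {n : ℕ} (Ω : Set (E n)) (u : E n → ℝ) : Prop :=
  ∀ s : ℕ → E n, (∀ m, s m ∈ Ω) →
    (∀ ε : ℝ, 0 < ε → ∃ N : ℕ, ∀ m ≥ N, ∀ l ≥ N, graphDist Ω u (s m) (s l) < ε) →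
    ∃ x ∈ Ω, Filter.Tendsto (fun m => graphDist Ω u (s m) x) Filter.atTop (nhds 0)

/-- `u` is a polynomial of degree at most two. -/
def IsQuadratic {n : ℕ} (u : E n → ℝ) : Prop :=
  ∃ (A : Matrix (Fin n) (Fin n) ℝ) (b : E n) (c : ℝ),
    ∀ x, u x = (1 / 2) * (∑ i, ∑ j, A i j * x i * x j) + ∑ i, b i * x i + c

/-- The graph of `u` over the whole space is an elliptic paraboloid. -/
def IsEllipticParaboloid {n : ℕ} (u : E n → ℝ) : Prop :=
  ∃ (A : Matrix (Fin n) (Fin n) ℝ) (b : E n) (c : ℝ), A.PosDef ∧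
    ∀ x, u x = (1 / 2) * (∑ i, ∑ j, A i j * x i * x j) + ∑ i, b i * x i + c

/-- The affine Bernstein property in dimension `n` (question Q1 of the problem). -/
def AffineBernstein (n : ℕ) : Prop :=
  ∀ (Ω : Set (E n)) (u : E n → ℝ), Ω.Nonempty → IsOpen Ω → Convex ℝ Ω →
    ContDiffOn ℝ ∞ u Ω → (∀ x ∈ Ω, (hess u x).PosDef) → (∀ x ∈ Ω, AffineMaximalAt u x) →
    EuclideanComplete Ω u → Ω = Set.univ ∧ IsEllipticParaboloid u

/-- The entire-graph form of the affine Bernstein property in dimension `n`. -/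
def EntireAffineBernstein (n : ℕ) : Prop :=
  ∀ u : E n → ℝ, ContDiff ℝ ∞ u → (∀ x, (hess u x).PosDef) → (∀ x, AffineMaximalAt u x) →
    IsQuadratic u

end Vale.Agent.P252
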