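import Mathlib
import Vale.Agent.P252.Defs

/-!
Entire graphs of continuously differentiable functions are complete (P252).
-/

namespace Vale.Agent.P252

open scoped ContDiff NNReal Topology
open Set Metric Filter MeasureTheory

variable {n : ℕ}

lemma continuous_integrand (u : E n → ℝ) (hu : ContDiff ℝ 1 u) (γ : ℝ → E n)
    (hγ : ContDiff ℝ 1 γ) :
    Continuous fun t => Real.sqrt (‖deriv γ t‖ ^ 2 + (fderiv ℝ u (γ t) (deriv γ t)) ^ 2) := by
  have h1 : Continuous (deriv γ) := hγ.continuous_deriv le_rfl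
  have h2 : Continuous (fderiv ℝ u) := hu.continuous_fderiv one_ne_zero
  have h3 : Continuous fun t => fderiv ℝ u (γ t) (deriv γ t) :=
    (h2.comp hγ.continuous).clm_apply h1
  fun_prop

lemma norm_le_graphLength (u : E n → ℝ) (hu : ContDiff ℝ 1 u) (γ : ℝ → E n)
    (hγ : ContDiff ℝ 1 γ) : ‖γ 1 - γ 0‖ ≤ graphLength u γ := by
  have h1 : Continuous (deriv γ) := hγ.continuous_deriv le_rfl
  have h2 : ∫ t in (0:ℝ)..1, deriv γ t = γ 1 - γ 0 := by
    apply intervalIntegral.integral_deriv_eq_sub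
    · intro t _; exact (hγ.differentiable one_ne_zero) t
    · exact h1.intervalIntegrable _ _
  rw [← h2]
  calc ‖∫ t in (0:ℝ)..1, deriv γ t‖ ≤ ∫ t in (0:ℝ)..1, ‖deriv γ t‖ :=
        intervalIntegral.norm_integral_le_integral_norm (by norm_num)
    _ ≤ graphLength u γ := by
        apply intervalIntegral.integral_mono_on (by norm_num)
        · exact h1.norm.intervalIntegrable _ _
        · exact (continuous_integrand u hu γ hγ).intervalIntegrable _ _
        · intro t _
          apply Real.le_sqrt_of_sq_le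
          nlinarith [sq_nonneg (fderiv ℝ u (γ t) (deriv γ t))]

lemma contDiff_segment (x y : E n) : ContDiff ℝ 1 (fun t : ℝ => x + t • (y - x)) := by
  fun_prop

lemma deriv_segment (x y : E n) (t : ℝ) : deriv (fun t : ℝ => x + t • (y - x)) t = y - x := by
  have : HasDerivAt (fun t : ℝ => x + t • (y - x)) ((1:ℝ) • (y - x)) t :=
    ((hasDerivAt_id t).smul_const (y - x)).const_add x
  rw [this.deriv, one_smul]

lemma norm_le_graphDist (u : E n → ℝ) (hu : ContDiff ℝ 1 u) (x y : E n) :
    ‖y - x‖ ≤ graphDist univ u x y := by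
  apply le_csInf
  · exact ⟨_, fun t : ℝ => x + t • (y - x), contDiff_segment x y, fun t _ => mem_univ _, by simp,
      by simp, rfl⟩
  · rintro L ⟨γ, hγ, _, h0, h1, rfl⟩
    rw [← h0, ← h1]
    exact norm_le_graphLength u hu γ hγ

lemma graphDist_le (u : E n → ℝ) (hu : ContDiff ℝ 1 u) (x y : E n) (M : ℝ) (hM : 0 ≤ M)
    (h : ∀ t ∈ Icc (0:ℝ) 1, ‖fderiv ℝ u (x + t • (y - x))‖ ≤ M) :
    graphDist univ u x y ≤ (1 + M) * ‖y - x‖ := by
  have hbdd : BddBelow {L : ℝ | ∃ γ : ℝ → E n, ContDiff ℝ 1 γ ∧ (∀ t ∈ Icc (0 : ℝ) 1, γ t ∈ univ) ∧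
    γ 0 = x ∧ γ 1 = y ∧ L = graphLength u γ} := by
    refine ⟨0, ?_⟩
    rintro L ⟨γ, hγ, _, h0, h1, rfl⟩
    exact (norm_nonneg _).trans (norm_le_graphLength u hu γ hγ)
  refine (csInf_le hbdd ⟨fun t : ℝ => x + t • (y - x), contDiff_segment x y,
    fun t _ => mem_univ _, by simp, by simp, rfl⟩).trans ?_
  unfold graphLength
  have h1 : (∫ t in (0:ℝ)..1, (1 + M) * ‖y - x‖) = (1 + M) * ‖y - x‖ := by simp
  rw [← h1]
  apply intervalIntegral.integral_mono_on (by norm_num)
  · exact (continuous_integrand u hu _ (contDiff_segment x y)).intervalIntegrable _ _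
  · exact continuous_const.intervalIntegrable _ _
  · intro t ht
    rw [deriv_segment]
    apply Real.sqrt_le_iff.2
    refine ⟨by positivity, ?_⟩
    have h2 : |fderiv ℝ u (x + t • (y - x)) (y - x)| ≤ M * ‖y - x‖ := by
      rw [← Real.norm_eq_abs]
      exact (ContinuousLinearMap.le_opNorm _ _).trans
        (mul_le_mul_of_nonneg_right (h t ht) (norm_nonneg _))
    have h3 : (fderiv ℝ u (x + t • (y - x)) (y - x)) ^ 2 ≤ (M * ‖y - x‖) ^ 2 :=
      sq_le_sq' (by linarith [neg_abs_le (fderiv ℝ u (x + t • (y - x)) (y - x))])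
        ((le_abs_self _).trans h2)
    have h4 : 0 ≤ ‖y - x‖ := norm_nonneg _
    nlinarith [mul_nonneg hM (mul_nonneg h4 h4)]

theorem euclideanComplete_univ (u : E n → ℝ) (hu : ContDiff ℝ 1 u) :
    EuclideanComplete Set.univ u := by
  intro s _ hs
  have hc : CauchySeq s := by
    rw [Metric.cauchySeq_iff]
    intro ε hε
    obtain ⟨N, hN⟩ := hs ε hε
    refine ⟨N, fun m hm l hl => ?_⟩
    rw [dist_comm, dist_eq_norm]
    exact (norm_le_graphDist u hu _ _).trans_lt (hN m hm l hl)
  obtain ⟨x, hx⟩ := cauchySeq_tendsto_of_complete hc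
  refine ⟨x, mem_univ _, ?_⟩
  have hcf : Continuous (fderiv ℝ u) := hu.continuous_fderiv one_ne_zero
  obtain ⟨M, hM⟩ := (isCompact_closedBall x 1).exists_bound_of_continuousOn hcf.continuousOn
  have hM0 : 0 ≤ M := (norm_nonneg _).trans (hM x (mem_closedBall_self (by norm_num)))
  have hev : ∀ᶠ m in atTop, graphDist univ u (s m) x ≤ (1 + M) * ‖x - s m‖ := by
    filter_upwards [hx.eventually (closedBall_mem_nhds x one_pos)] with m hm
    apply graphDist_le u hu _ _ M hM0
    intro t ht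
    apply hM
    have := (convex_closedBall x 1).add_smul_sub_mem hm (mem_closedBall_self (by norm_num)) ht
    exact this
  have hlim : Tendsto (fun m => (1 + M) * ‖x - s m‖) atTop (𝓝 0) := by
    have : Tendsto (fun m => (1 + M) * ‖x - s m‖) atTop (𝓝 ((1 + M) * ‖x - x‖)) :=
      ((tendsto_const_nhds.sub hx).norm).const_mul (1 + M)
    simpa using this
  refine squeeze_zero' (Eventually.of_forall fun m => ?_) hev hlim
  exact (norm_nonneg _).trans (norm_le_graphDist u hu _ _)

end Vale.Agent.P252
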