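import Mathlib

/-!
Matrix lemmas for the affine Bernstein problem (P252): matrices of the shape
`a * 1 + b * X X^T` bordered by `c * X` and `d`.
-/

namespace Vale.Agent.P252

open Matrix

/-- Bordered matrix in block form. -/
noncomputable def BM {k : ℕ} (a b c d : ℝ) (x : Fin k → ℝ) :
    Matrix (Fin k ⊕ Fin 1) (Fin k ⊕ Fin 1) ℝ :=
  Matrix.fromBlocks (a • (1 : Matrix (Fin k) (Fin k) ℝ) + b • Matrix.vecMulVec x x)
    (Matrix.of fun i _ => c * x i) (Matrix.of fun _ j => c * x j) (Matrix.of fun _ _ => d)

/-- The same matrix indexed by `Fin (k+1)`. -/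
noncomputable def SM {k : ℕ} (a b c d : ℝ) (x : Fin k → ℝ) :
    Matrix (Fin (k + 1)) (Fin (k + 1)) ℝ :=
  (BM a b c d x).submatrix finSumFinEquiv.symm finSumFinEquiv.symm

theorem SM_castSucc_castSucc {k : ℕ} (a b c d : ℝ) (x : Fin k → ℝ) (i j : Fin k) :
    SM a b c d x i.castSucc j.castSucc = (if i = j then a else 0) + b * (x i * x j) := by
  have h1 : (finSumFinEquiv.symm (Fin.castSucc i) : Fin k ⊕ Fin 1) = Sum.inl i :=
    finSumFinEquiv_symm_apply_castAdd (n := 1) i
  have h2 : (finSumFinEquiv.symm (Fin.castSucc j) : Fin k ⊕ Fin 1) = Sum.inl j :=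
    finSumFinEquiv_symm_apply_castAdd (n := 1) j
  simp only [SM, BM, Matrix.submatrix_apply, h1, h2, Matrix.fromBlocks_apply₁₁, Matrix.add_apply,
    Matrix.smul_apply, Matrix.one_apply, Matrix.vecMulVec_apply, smul_eq_mul]
  split_ifs <;> ring

theorem SM_castSucc_last {k : ℕ} (a b c d : ℝ) (x : Fin k → ℝ) (i : Fin k) :
    SM a b c d x i.castSucc (Fin.last k) = c * x i := by
  have h1 : (finSumFinEquiv.symm (Fin.castSucc i) : Fin k ⊕ Fin 1) = Sum.inl i :=
    finSumFinEquiv_symm_apply_castAdd (n := 1) i
  have h2 : (finSumFinEquiv.symm (Fin.last k) : Fin k ⊕ Fin 1) = Sum.inr 0 :=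
    finSumFinEquiv_symm_apply_natAdd (m := k) (n := 1) 0
  simp only [SM, BM, Matrix.submatrix_apply, h1, h2, Matrix.fromBlocks_apply₁₂, Matrix.of_apply]

theorem SM_last_castSucc {k : ℕ} (a b c d : ℝ) (x : Fin k → ℝ) (j : Fin k) :
    SM a b c d x (Fin.last k) j.castSucc = c * x j := by
  have h1 : (finSumFinEquiv.symm (Fin.castSucc j) : Fin k ⊕ Fin 1) = Sum.inl j :=
    finSumFinEquiv_symm_apply_castAdd (n := 1) j
  have h2 : (finSumFinEquiv.symm (Fin.last k) : Fin k ⊕ Fin 1) = Sum.inr 0 :=
    finSumFinEquiv_symm_apply_natAdd (m := k) (n := 1) 0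
  simp only [SM, BM, Matrix.submatrix_apply, h1, h2, Matrix.fromBlocks_apply₂₁, Matrix.of_apply]

theorem SM_last_last {k : ℕ} (a b c d : ℝ) (x : Fin k → ℝ) :
    SM a b c d x (Fin.last k) (Fin.last k) = d := by
  have h2 : (finSumFinEquiv.symm (Fin.last k) : Fin k ⊕ Fin 1) = Sum.inr 0 :=
    finSumFinEquiv_symm_apply_natAdd (m := k) (n := 1) 0
  simp only [SM, BM, Matrix.submatrix_apply, h2, Matrix.fromBlocks_apply₂₂, Matrix.of_apply]

theorem det_smul_one_add_vecMulVec {k : ℕ} (hk : 1 ≤ k) (a b : ℝ) (ha : a ≠ 0) (x : Fin k → ℝ) :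
    (a • (1 : Matrix (Fin k) (Fin k) ℝ) + b • Matrix.vecMulVec x x).det
      = a ^ (k - 1) * (a + b * ∑ i, x i ^ 2) := by
  have h : a • (1 : Matrix (Fin k) (Fin k) ℝ) + b • Matrix.vecMulVec x x
      = a • (1 + Matrix.replicateCol Unit ((b / a) • x) * Matrix.replicateRow Unit x) := by
    ext i j
    simp only [Matrix.add_apply, Matrix.smul_apply, Matrix.vecMulVec_apply, smul_eq_mul,
      Matrix.mul_apply, Matrix.replicateCol_apply, Matrix.replicateRow_apply, Pi.smul_apply,
      Finset.univ_unique, Finset.sum_singleton]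
    field_simp
  rw [h, Matrix.det_smul, Matrix.det_one_add_replicateCol_mul_replicateRow, Fintype.card_fin]
  have hs : x ⬝ᵥ ((b / a) • x) = (b / a) * ∑ i, x i ^ 2 := by
    simp only [dotProduct, Pi.smul_apply, smul_eq_mul, Finset.mul_sum]
    refine Finset.sum_congr rfl fun i _ => ?_
    ring
  rw [hs]
  obtain ⟨m, rfl⟩ : ∃ m, k = m + 1 := ⟨k - 1, by omega⟩
  simp only [Nat.add_sub_cancel, pow_succ]
  field_simp

theorem det_BM {k : ℕ} (hk : 1 ≤ k) (a b c d : ℝ) (ha : a ≠ 0) (hd : d ≠ 0) (x : Fin k → ℝ) :
    (BM a b c d x).det = a ^ (k - 1) * ((a + b * ∑ i, x i ^ 2) * d - c ^ 2 * ∑ i, x i ^ 2) := by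
  have hD : (Matrix.of fun (_ _ : Fin 1) => d).det ≠ 0 := by
    rw [Matrix.det_fin_one]; simpa using hd
  have : Invertible (Matrix.of fun (_ _ : Fin 1) => d) :=
    Matrix.invertibleOfIsUnitDet _ (isUnit_iff_ne_zero.mpr hD)
  rw [BM, Matrix.det_fromBlocks₂₂, Matrix.det_fin_one]
  have hinv : ⅟(Matrix.of fun (_ _ : Fin 1) => d) = Matrix.of fun (_ _ : Fin 1) => d⁻¹ := by
    apply invOf_eq_right_inv
    ext i j
    fin_cases i; fin_cases j
    simp [Matrix.mul_apply, hd]
  rw [hinv]
  have hA : (a • (1 : Matrix (Fin k) (Fin k) ℝ) + b • Matrix.vecMulVec x x)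
      - (Matrix.of fun (i : Fin k) (_ : Fin 1) => c * x i) * (Matrix.of fun (_ _ : Fin 1) => d⁻¹)
        * (Matrix.of fun (_ : Fin 1) (j : Fin k) => c * x j)
      = a • (1 : Matrix (Fin k) (Fin k) ℝ) + (b - c ^ 2 / d) • Matrix.vecMulVec x x := by
    ext i j
    simp only [Matrix.sub_apply, Matrix.add_apply, Matrix.smul_apply, Matrix.vecMulVec_apply,
      smul_eq_mul, Matrix.mul_apply, Finset.univ_unique, Finset.sum_singleton, Matrix.of_apply]
    field_simp
    ring
  rw [hA, det_smul_one_add_vecMulVec hk a _ ha x]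
  simp only [Matrix.of_apply]
  field_simp
  ring

theorem det_SM {k : ℕ} (hk : 1 ≤ k) (a b c d : ℝ) (ha : a ≠ 0) (hd : d ≠ 0) (x : Fin k → ℝ) :
    (SM a b c d x).det = a ^ (k - 1) * ((a + b * ∑ i, x i ^ 2) * d - c ^ 2 * ∑ i, x i ^ 2) := by
  rw [SM, Matrix.det_submatrix_equiv_self, det_BM hk a b c d ha hd x]

/-- Sum over `Fin (k+1)` of products of two bordered matrices (row-column product). -/
theorem SM_mul {k : ℕ} (a b c d a' b' c' d' : ℝ) (x : Fin k → ℝ) :
    SM a b c d x * SM a' b' c' d' x
      = Matrix.of fun i j => Fin.lastCases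
          (Fin.lastCases (c * c' * (∑ i, x i ^ 2) + d * d')
            (fun j => (c * a' + c * b' * (∑ i, x i ^ 2) + d * c') * x j) j)
          (fun i => Fin.lastCases ((a * c' + b * c' * (∑ i, x i ^ 2) + c * d') * x i)
            (fun j => (if i = j then a * a' else 0)
              + (a * b' + b * a' + b * b' * (∑ i, x i ^ 2) + c * c') * (x i * x j)) j) i := by
  ext i j
  have hsum : ∀ (i j : Fin k), ∑ l, ((if i = l then a else 0) + b * (x i * x l))
      * ((if l = j then a' else 0) + b' * (x l * x j))
      = (if i = j then a * a' else 0)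
        + (a * b' + b * a' + b * b' * (∑ i, x i ^ 2)) * (x i * x j) := by
    intro i j
    simp only [add_mul, mul_add, Finset.sum_add_distrib, ite_mul, mul_ite, zero_mul, mul_zero,
      Finset.sum_ite_eq, Finset.sum_ite_eq', Finset.mem_univ, if_true]
    have h1 : ∑ l, b * (x i * x l) * (b' * (x l * x j))
        = b * b' * (∑ i, x i ^ 2) * (x i * x j) := by
      rw [Finset.mul_sum, Finset.sum_mul]
      exact Finset.sum_congr rfl fun l _ => by ring
    rw [h1]
    by_cases hij : i = j
    · subst hij; simp only [if_true]; ring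
    · simp only [hij, if_false]; ring
  rw [Matrix.mul_apply, Fin.sum_univ_castSucc]
  induction i using Fin.lastCases with
  | last =>
    induction j using Fin.lastCases with
    | last =>
      simp only [SM_last_castSucc, SM_castSucc_last, SM_last_last, Matrix.of_apply,
        Fin.lastCases_last]
      rw [Finset.mul_sum]
      congr 1
      exact Finset.sum_congr rfl fun l _ => by ring
    | cast j =>
      simp only [SM_last_castSucc, SM_castSucc_castSucc, SM_last_last, Matrix.of_apply,
        Fin.lastCases_last, Fin.lastCases_castSucc, mul_add, Finset.sum_add_distrib, mul_ite,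
        mul_zero, Finset.sum_ite_eq', Finset.mem_univ, if_true]
      have h1 : ∑ l, c * x l * (b' * (x l * x j)) = c * b' * (∑ i, x i ^ 2) * x j := by
        rw [Finset.mul_sum, Finset.sum_mul]
        exact Finset.sum_congr rfl fun l _ => by ring
      rw [h1]; ring
  | cast i =>
    induction j using Fin.lastCases with
    | last =>
      simp only [SM_castSucc_last, SM_castSucc_castSucc, SM_last_last, Matrix.of_apply,
        Fin.lastCases_last, Fin.lastCases_castSucc, add_mul, Finset.sum_add_distrib, ite_mul,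
        zero_mul, Finset.sum_ite_eq, Finset.mem_univ, if_true]
      have h1 : ∑ l, b * (x i * x l) * (c' * x l) = b * c' * (∑ i, x i ^ 2) * x i := by
        rw [Finset.mul_sum, Finset.sum_mul]
        exact Finset.sum_congr rfl fun l _ => by ring
      rw [h1]; ring
    | cast j =>
      simp only [SM_castSucc_castSucc, SM_castSucc_last, SM_last_castSucc, Matrix.of_apply,
        Fin.lastCases_castSucc]
      rw [hsum]; ring

theorem SM_inv {k : ℕ} (a b c d : ℝ) (x : Fin k → ℝ) (ha : a ≠ 0)
    (hΔ : (a + b * ∑ i, x i ^ 2) * d - c ^ 2 * ∑ i, x i ^ 2 ≠ 0) :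
    (SM a b c d x)⁻¹ = SM (1 / a)
      ((c ^ 2 - b * d) / (a * ((a + b * ∑ i, x i ^ 2) * d - c ^ 2 * ∑ i, x i ^ 2)))
      (-c / ((a + b * ∑ i, x i ^ 2) * d - c ^ 2 * ∑ i, x i ^ 2))
      ((a + b * ∑ i, x i ^ 2) / ((a + b * ∑ i, x i ^ 2) * d - c ^ 2 * ∑ i, x i ^ 2)) x := by
  apply Matrix.inv_eq_right_inv
  rw [SM_mul]
  set z := ∑ i, x i ^ 2 with hz
  set D := (a + b * z) * d - c ^ 2 * z with hD
  ext i j
  induction i using Fin.lastCases with
  | last =>
    induction j using Fin.lastCases with
    | last =>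
      simp only [Matrix.of_apply, Fin.lastCases_last, Matrix.one_apply_eq]
      field_simp
      rw [hD]; ring
    | cast j =>
      have hne : Fin.last k ≠ j.castSucc := (Fin.castSucc_lt_last j).ne'
      simp only [Matrix.of_apply, Fin.lastCases_last, Fin.lastCases_castSucc,
        Matrix.one_apply_ne hne]
      have : c * (1 / a) + c * ((c ^ 2 - b * d) / (a * D)) * z + d * (-c / D) = 0 := by
        field_simp
        rw [hD]; ring
      rw [this, zero_mul]
  | cast i =>
    induction j using Fin.lastCases with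
    | last =>
      have hne : i.castSucc ≠ Fin.last k := (Fin.castSucc_lt_last i).ne
      simp only [Matrix.of_apply, Fin.lastCases_last, Fin.lastCases_castSucc,
        Matrix.one_apply_ne hne]
      have : a * (-c / D) + b * (-c / D) * z + c * ((a + b * z) / D) = 0 := by
        field_simp
        ring
      rw [this, zero_mul]
    | cast j =>
      simp only [Matrix.of_apply, Fin.lastCases_castSucc]
      have : a * ((c ^ 2 - b * d) / (a * D)) + b * (1 / a) + b * ((c ^ 2 - b * d) / (a * D)) * z
          + c * (-c / D) = 0 := by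
        field_simp
        rw [hD]; ring
      rw [this, zero_mul, add_zero]
      by_cases hij : i = j
      · subst hij
        simp [ha]
      · have hne : i.castSucc ≠ j.castSucc := fun h => hij (Fin.castSucc_injective _ h)
        simp [hij, Matrix.one_apply_ne hne]

/-- The full contraction of two bordered matrices. -/
theorem SM_contract {k : ℕ} (a b c d a' b' c' d' : ℝ) (x : Fin k → ℝ) :
    ∑ i, ∑ j, SM a b c d x i j * SM a' b' c' d' x i j
      = k * (a * a') + (a * b' + b * a') * (∑ i, x i ^ 2) + b * b' * (∑ i, x i ^ 2) ^ 2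
        + 2 * (c * c' * ∑ i, x i ^ 2) + d * d' := by
  rw [Fin.sum_univ_castSucc]
  simp only [Fin.sum_univ_castSucc, SM_castSucc_castSucc, SM_castSucc_last, SM_last_castSucc,
    SM_last_last]
  have h1 : ∀ i : Fin k, ∑ j, ((if i = j then a else 0) + b * (x i * x j))
      * ((if i = j then a' else 0) + b' * (x i * x j))
      = a * a' + (a * b' + b * a') * x i ^ 2 + b * b' * (x i ^ 2 * ∑ i, x i ^ 2) := by
    intro i
    simp only [add_mul, mul_add, Finset.sum_add_distrib, ite_mul, mul_ite, zero_mul, mul_zero]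
    have h2 : ∑ l, b * (x i * x l) * (b' * (x i * x l))
        = b * b' * (x i ^ 2 * ∑ i, x i ^ 2) := by
      rw [Finset.mul_sum, Finset.mul_sum]
      exact Finset.sum_congr rfl fun l _ => by ring
    rw [h2]
    simp only [Finset.sum_ite_eq, Finset.mem_univ, if_true]
    ring
  simp only [h1, Finset.sum_add_distrib, Finset.sum_const, Finset.card_univ, Fintype.card_fin,
    nsmul_eq_mul]
  have h3 : ∑ i, c * x i * (c' * x i) = c * c' * ∑ i, x i ^ 2 := by
    rw [Finset.mul_sum]
    exact Finset.sum_congr rfl fun l _ => by ring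
  rw [h3]
  simp only [← Finset.mul_sum, ← Finset.sum_mul]
  ring

/-- Positive definiteness of the bordered matrix. -/
theorem SM_posDef {k : ℕ} (a b c d : ℝ) (x : Fin k → ℝ) (ha : 0 < a) (hd : 0 < d)
    (hΔ : 0 < (a + b * ∑ i, x i ^ 2) * d - c ^ 2 * ∑ i, x i ^ 2) :
    (SM a b c d x).PosDef := by
  rw [Matrix.posDef_iff_dotProduct_mulVec]
  constructor
  · ext i j
    simp only [Matrix.conjTranspose_apply, star_trivial]
    induction i using Fin.lastCases with
    | last =>
      induction j using Fin.lastCases with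
      | last => rfl
      | cast j => rw [SM_last_castSucc, SM_castSucc_last]
    | cast i =>
      induction j using Fin.lastCases with
      | last => rw [SM_last_castSucc, SM_castSucc_last]
      | cast j =>
        rw [SM_castSucc_castSucc, SM_castSucc_castSucc, mul_comm (x i)]
        by_cases hij : i = j
        · simp [hij]
        · simp [hij, Ne.symm hij]
  · intro v hv
    set z := ∑ i, x i ^ 2 with hz
    have key : star v ⬝ᵥ (SM a b c d x *ᵥ v)
        = a * (∑ i : Fin k, v i.castSucc ^ 2) + b * (∑ i : Fin k, x i * v i.castSucc) ^ 2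
          + 2 * c * (∑ i : Fin k, x i * v i.castSucc) * v (Fin.last k)
          + d * v (Fin.last k) ^ 2 := by
      simp only [dotProduct, Matrix.mulVec, star_trivial, Pi.star_apply]
      rw [Fin.sum_univ_castSucc]
      simp only [Fin.sum_univ_castSucc, SM_castSucc_castSucc, SM_castSucc_last, SM_last_castSucc,
        SM_last_last]
      have h1 : ∀ i : Fin k, ∑ j : Fin k, ((if i = j then a else 0) + b * (x i * x j))
          * v j.castSucc = a * v i.castSucc + b * x i * ∑ j : Fin k, x j * v j.castSucc := by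
        intro i
        simp only [add_mul, Finset.sum_add_distrib, ite_mul, zero_mul, Finset.sum_ite_eq,
          Finset.mem_univ, if_true]
        congr 1
        rw [Finset.mul_sum]
        exact Finset.sum_congr rfl fun l _ => by ring
      simp only [h1]
      set s := ∑ j : Fin k, x j * v j.castSucc with hs
      have h2 : ∑ i : Fin k, v i.castSucc * (a * v i.castSucc + b * x i * s
          + c * x i * v (Fin.last k))
          = a * (∑ i : Fin k, v i.castSucc ^ 2) + b * s * s + c * v (Fin.last k) * s := by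
        have : ∀ i : Fin k, v i.castSucc * (a * v i.castSucc + b * x i * s
          + c * x i * v (Fin.last k)) = a * v i.castSucc ^ 2 + b * s * (x i * v i.castSucc)
            + c * v (Fin.last k) * (x i * v i.castSucc) := fun i => by ring
        simp only [this, Finset.sum_add_distrib, ← Finset.mul_sum]
        rw [← hs]
      have h3 : ∑ j : Fin k, c * x j * v j.castSucc = c * s := by
        rw [hs, Finset.mul_sum]
        exact Finset.sum_congr rfl fun l _ => by ring
      rw [h2, h3]
      ring
    rw [key]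
    set s := ∑ j : Fin k, x j * v j.castSucc with hs
    set V := ∑ i : Fin k, v i.castSucc ^ 2 with hV
    set τ := v (Fin.last k) with hτ
    have hV0 : 0 ≤ V := Finset.sum_nonneg fun i _ => sq_nonneg _
    have hz0 : 0 ≤ z := Finset.sum_nonneg fun i _ => sq_nonneg _
    have hcs : s ^ 2 ≤ z * V := Finset.sum_mul_sq_le_sq_mul_sq _ _ _
    -- d * form = a d V + (b d - c^2) s^2 + (c s + d τ)^2
    have hform : d * (a * V + b * s ^ 2 + 2 * c * s * τ + d * τ ^ 2)
        = a * d * V + (b * d - c ^ 2) * s ^ 2 + (c * s + d * τ) ^ 2 := by ring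
    have hpos : 0 < d * (a * V + b * s ^ 2 + 2 * c * s * τ + d * τ ^ 2) := by
      rw [hform]
      by_cases hV' : V = 0
      · have hs0 : s = 0 := by
          have : s ^ 2 ≤ 0 := by rw [hV', mul_zero] at hcs; exact hcs
          exact pow_eq_zero_iff (two_ne_zero) |>.mp (le_antisymm this (sq_nonneg _))
        have hτ0 : τ ≠ 0 := by
          intro h0
          apply hv
          funext i
          induction i using Fin.lastCases with
          | last => exact h0
          | cast i =>
            have := (Finset.sum_eq_zero_iff_of_nonneg (fun i _ => sq_nonneg _)).mp hV' i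
              (Finset.mem_univ i)
            exact pow_eq_zero_iff (two_ne_zero) |>.mp this
        rw [hV', hs0]
        have : 0 < (d * τ) ^ 2 := by positivity
        simpa using this
      · have hVpos : 0 < V := lt_of_le_of_ne hV0 (Ne.symm hV')
        have h1 : 0 < a * d * V + (b * d - c ^ 2) * s ^ 2 := by
          by_cases hbd : 0 ≤ b * d - c ^ 2
          · have : 0 < a * d * V := by positivity
            have : 0 ≤ (b * d - c ^ 2) * s ^ 2 := mul_nonneg hbd (sq_nonneg _)
            linarith
          · push Not at hbd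
            have h2 : (b * d - c ^ 2) * (z * V) ≤ (b * d - c ^ 2) * s ^ 2 :=
              mul_le_mul_of_nonpos_left hcs hbd.le
            have h3 : 0 < V * ((a + b * z) * d - c ^ 2 * z) := mul_pos hVpos hΔ
            nlinarith
        have h4 : 0 ≤ (c * s + d * τ) ^ 2 := sq_nonneg _
        linarith
    exact (mul_pos_iff_of_pos_left hd).mp hpos

end Vale.Agent.P252
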