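import Vale.Agent.P252.Defs
import Vale.Agent.P252.GeomMat

/-!
Partial derivatives and Hessians of functions of `(z, t)` with `z = |x|^2` (P252).
-/

namespace Vale.Agent.P252

open scoped ContDiff

/-- `z = |x|^2`. -/
noncomputable def zf {k : ℕ} (p : E (k + 1)) : ℝ := ∑ i : Fin k, p i.castSucc ^ 2

/-- `t`, the last coordinate. -/
noncomputable def tf {k : ℕ} (p : E (k + 1)) : ℝ := p (Fin.last k)

theorem zf_nonneg {k : ℕ} (p : E (k + 1)) : 0 ≤ zf p :=
  Finset.sum_nonneg fun _ _ => sq_nonneg _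

theorem proj_single {n : ℕ} (i j : Fin n) :
    (EuclideanSpace.proj (𝕜 := ℝ) i : E n →L[ℝ] ℝ) (EuclideanSpace.single j 1)
      = if i = j then 1 else 0 := by
  simp [EuclideanSpace.proj]

/-- Derivative of `zf`. -/
noncomputable def dz {k : ℕ} (p : E (k + 1)) : E (k + 1) →L[ℝ] ℝ :=
  ∑ i : Fin k, (2 * p i.castSucc) • EuclideanSpace.proj (𝕜 := ℝ) i.castSucc

/-- Derivative of `tf`. -/
noncomputable def dt {k : ℕ} : E (k + 1) →L[ℝ] ℝ := EuclideanSpace.proj (𝕜 := ℝ) (Fin.last k)

theorem hasFDerivAt_coord {n : ℕ} (i : Fin n) (p : E n) :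
    HasFDerivAt (fun p : E n => p i) (EuclideanSpace.proj (𝕜 := ℝ) i) p :=
  (EuclideanSpace.proj (𝕜 := ℝ) i : E n →L[ℝ] ℝ).hasFDerivAt

theorem hasFDerivAt_zf {k : ℕ} (p : E (k + 1)) : HasFDerivAt zf (dz p) p := by
  unfold zf dz
  refine HasFDerivAt.fun_sum fun i _ => ?_
  have h := (hasFDerivAt_coord (n := k + 1) i.castSucc p).pow 2
  refine h.congr_fderiv ?_
  ext v
  simp

theorem hasFDerivAt_tf {k : ℕ} (p : E (k + 1)) : HasFDerivAt tf dt p :=
  hasFDerivAt_coord (Fin.last k) p

theorem dz_single_castSucc {k : ℕ} (p : E (k + 1)) (i : Fin k) :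
    dz p (EuclideanSpace.single i.castSucc 1) = 2 * p i.castSucc := by
  simp only [dz, _root_.sum_apply, _root_.smul_apply,
    proj_single, smul_eq_mul, mul_ite, mul_one,
    mul_zero]
  rw [Finset.sum_eq_single i]
  · simp
  · intro j _ hj
    have : j.castSucc ≠ i.castSucc := fun h => hj (Fin.castSucc_injective _ h)
    simp [this]
  · simp

theorem dz_single_last {k : ℕ} (p : E (k + 1)) :
    dz p (EuclideanSpace.single (Fin.last k) 1) = 0 := by
  simp only [dz, _root_.sum_apply, _root_.smul_apply,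
    proj_single, smul_eq_mul, mul_ite, mul_one,
    mul_zero]
  refine Finset.sum_eq_zero fun j _ => ?_
  simp [(Fin.castSucc_lt_last j).ne]

theorem dt_single_castSucc {k : ℕ} (i : Fin k) :
    (dt : E (k + 1) →L[ℝ] ℝ) (EuclideanSpace.single i.castSucc 1) = 0 := by
  simp [dt, EuclideanSpace.single_apply, (Fin.castSucc_lt_last i).ne']

theorem dt_single_last {k : ℕ} :
    (dt : E (k + 1) →L[ℝ] ℝ) (EuclideanSpace.single (Fin.last k) 1) = 1 := by
  simp [dt]

/-- Derivative of a function of `(z,t)`. -/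
theorem hasFDerivAt_comp_zt {k : ℕ} {G : ℝ × ℝ → ℝ} {gz gt : ℝ} (p : E (k + 1))
    (hG : HasFDerivAt G (gz • ContinuousLinearMap.fst ℝ ℝ ℝ + gt • ContinuousLinearMap.snd ℝ ℝ ℝ)
      (zf p, tf p)) :
    HasFDerivAt (fun p : E (k + 1) => G (zf p, tf p)) (gz • dz p + gt • dt) p := by
  have h := hG.comp p ((hasFDerivAt_zf p).prodMk (hasFDerivAt_tf p))
  refine h.congr_fderiv ?_
  ext v
  simp

theorem pd_castSucc_of_hasFDerivAt {k : ℕ} {f : E (k + 1) → ℝ} {gz gt : ℝ} {p : E (k + 1)}
    (h : HasFDerivAt f (gz • dz p + gt • dt) p) (i : Fin k) :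
    pd i.castSucc f p = 2 * p i.castSucc * gz := by
  rw [pd, h.fderiv]
  simp only [_root_.add_apply, _root_.smul_apply, dz_single_castSucc,
    dt_single_castSucc, smul_eq_mul]
  ring

theorem pd_last_of_hasFDerivAt {k : ℕ} {f : E (k + 1) → ℝ} {gz gt : ℝ} {p : E (k + 1)}
    (h : HasFDerivAt f (gz • dz p + gt • dt) p) :
    pd (Fin.last k) f p = gt := by
  rw [pd, h.fderiv]
  simp only [_root_.add_apply, _root_.smul_apply, dz_single_last,
    dt_single_last, smul_eq_mul]
  ring

/-- Hessian of a function of `(z,t)`. -/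
theorem hess_comp_zt {k : ℕ} {g : E (k + 1) → ℝ} {Gz Gt : ℝ × ℝ → ℝ} {gzz gzt gtt : ℝ}
    (h1 : ∀ p : E (k + 1), HasFDerivAt g (Gz (zf p, tf p) • dz p + Gt (zf p, tf p) • dt) p)
    (p : E (k + 1))
    (hz : HasFDerivAt Gz (gzz • ContinuousLinearMap.fst ℝ ℝ ℝ
      + gzt • ContinuousLinearMap.snd ℝ ℝ ℝ) (zf p, tf p))
    (ht : HasFDerivAt Gt (gzt • ContinuousLinearMap.fst ℝ ℝ ℝ
      + gtt • ContinuousLinearMap.snd ℝ ℝ ℝ) (zf p, tf p)) :
    hess g p = SM (2 * Gz (zf p, tf p)) (4 * gzz) (2 * gzt) gtt (fun i => p i.castSucc) := by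
  have hzp := hasFDerivAt_comp_zt p hz
  have htp := hasFDerivAt_comp_zt p ht
  have hpd_cast : ∀ j : Fin k, pd j.castSucc g = fun p => 2 * p j.castSucc * Gz (zf p, tf p) :=
    fun j => funext fun p => pd_castSucc_of_hasFDerivAt (h1 p) j
  have hpd_last : pd (Fin.last k) g = fun p => Gt (zf p, tf p) :=
    funext fun p => pd_last_of_hasFDerivAt (h1 p)
  have hcoord : ∀ j : Fin k, HasFDerivAt (fun p : E (k + 1) => 2 * p j.castSucc * Gz (zf p, tf p))
      ((2 * p j.castSucc) • (gzz • dz p + gzt • dt)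
        + Gz (zf p, tf p) • ((2 : ℝ) • EuclideanSpace.proj (𝕜 := ℝ) j.castSucc)) p := by
    intro j
    have h2 : HasFDerivAt (fun p : E (k + 1) => 2 * p j.castSucc)
        ((2 : ℝ) • EuclideanSpace.proj (𝕜 := ℝ) j.castSucc) p :=
      (hasFDerivAt_coord (n := k + 1) j.castSucc p).const_mul 2
    exact h2.mul hzp
  ext i j
  simp only [hess, Matrix.of_apply]
  induction i using Fin.lastCases with
  | last =>
    induction j using Fin.lastCases with
    | last => rw [SM_last_last, hpd_last, pd_last_of_hasFDerivAt htp]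
    | cast j =>
      rw [SM_last_castSucc, hpd_cast, pd, (hcoord j).fderiv]
      simp only [_root_.add_apply, _root_.smul_apply, dz_single_last,
        dt_single_last, smul_eq_mul, proj_single,
        (Fin.castSucc_lt_last j).ne, if_false]
      ring
  | cast i =>
    induction j using Fin.lastCases with
    | last =>
      rw [SM_castSucc_last, hpd_last, pd_castSucc_of_hasFDerivAt htp]
      ring
    | cast j =>
      rw [SM_castSucc_castSucc, hpd_cast, pd, (hcoord j).fderiv]
      simp only [_root_.add_apply, _root_.smul_apply,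
        dz_single_castSucc, dt_single_castSucc, smul_eq_mul, proj_single]
      by_cases hij : i = j
      · subst hij
        simp only [if_true]
        ring
      · have : j.castSucc ≠ i.castSucc := fun h => hij (Fin.castSucc_injective _ h).symm
        simp only [this, hij, if_false]
        ring

end Vale.Agent.P252
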