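import Vale.Agent.P252.Profile
import Vale.Agent.P252.GeomCalc

/-!
Verification that `u(x,t) = sqrt (t^2 + F(|x|^2))` solves the affine maximal equation (P252).
-/

namespace Vale.Agent.P252

open scoped ContDiff

/-- The linear form `(v1, v2) ↦ a v1 + b v2`. -/
noncomputable def LF (a b : ℝ) : ℝ × ℝ →L[ℝ] ℝ :=
  a • ContinuousLinearMap.fst ℝ ℝ ℝ + b • ContinuousLinearMap.snd ℝ ℝ ℝ

theorem LF_congr {f : ℝ × ℝ → ℝ} {a b a' b' : ℝ} {v : ℝ × ℝ} (h : HasFDerivAt f (LF a b) v)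
    (ha : a = a') (hb : b = b') : HasFDerivAt f (LF a' b') v := by
  subst ha; subst hb; exact h

theorem LF_fst {f : ℝ → ℝ} {f' : ℝ} {v : ℝ × ℝ} (h : HasDerivAt f f' v.1) :
    HasFDerivAt (fun v : ℝ × ℝ => f v.1) (LF f' 0) v := by
  have h2 := h.hasFDerivAt.comp v (hasFDerivAt_fst (𝕜 := ℝ) (E := ℝ) (F := ℝ) (p := v))
  refine h2.congr_fderiv ?_
  ext <;> simp [LF]

theorem LF_snd {f : ℝ → ℝ} {f' : ℝ} {v : ℝ × ℝ} (h : HasDerivAt f f' v.2) :
    HasFDerivAt (fun v : ℝ × ℝ => f v.2) (LF 0 f') v := by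
  have h2 := h.hasFDerivAt.comp v (hasFDerivAt_snd (𝕜 := ℝ) (E := ℝ) (F := ℝ) (p := v))
  refine h2.congr_fderiv ?_
  ext <;> simp [LF]

theorem LF_add {f g : ℝ × ℝ → ℝ} {a b c d : ℝ} {v : ℝ × ℝ} (hf : HasFDerivAt f (LF a b) v)
    (hg : HasFDerivAt g (LF c d) v) :
    HasFDerivAt (fun v => f v + g v) (LF (a + c) (b + d)) v := by
  refine (hf.add hg).congr_fderiv ?_
  ext <;> simp [LF]

theorem LF_mul {f g : ℝ × ℝ → ℝ} {a b c d : ℝ} {v : ℝ × ℝ} (hf : HasFDerivAt f (LF a b) v)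
    (hg : HasFDerivAt g (LF c d) v) :
    HasFDerivAt (fun v => f v * g v) (LF (f v * c + g v * a) (f v * d + g v * b)) v := by
  refine (hf.mul hg).congr_fderiv ?_
  ext <;> simp [LF]

theorem LF_comp {f : ℝ × ℝ → ℝ} {h : ℝ → ℝ} {a b h' : ℝ} {v : ℝ × ℝ}
    (hf : HasFDerivAt f (LF a b) v) (hh : HasDerivAt h h' (f v)) :
    HasFDerivAt (fun v => h (f v)) (LF (h' * a) (h' * b)) v := by
  refine (hh.hasFDerivAt.comp v hf).congr_fderiv ?_
  ext <;> simp [LF] <;> ring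

/-- The contraction of the inverse of a bordered matrix with another one. -/
theorem SM_inv_contract {k : ℕ} (a b c d a' b' c' d' : ℝ) (x : Fin k → ℝ) (z : ℝ)
    (hz : ∑ i, x i ^ 2 = z) (ha : a ≠ 0) (hΔ : (a + b * z) * d - c ^ 2 * z ≠ 0) :
    ∑ i, ∑ j, (SM a b c d x)⁻¹ i j * SM a' b' c' d' x i j
      = ((k : ℝ) - 1) * a' / a + (d * (a' + b' * z) - 2 * c * c' * z + (a + b * z) * d')
          / ((a + b * z) * d - c ^ 2 * z) := by
  subst hz
  rw [SM_inv a b c d x ha hΔ, SM_contract]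
  set z := ∑ i, x i ^ 2
  set D := (a + b * z) * d - c ^ 2 * z with hD
  have hbd : c ^ 2 * z = (a + b * z) * d - D := by rw [hD]; ring
  field_simp
  have hb : b * d * z = D - a * d + c ^ 2 * z := by rw [hD]; ring
  linear_combination (-(a' + b' * z)) * hb

namespace Profile

variable {k : ℕ} (P : Profile k)

/-- `S = t^2 + F z`. -/
noncomputable def S (v : ℝ × ℝ) : ℝ := v.2 ^ 2 + P.F v.1

/-- `u` as a function of `(z,t)`. -/
noncomputable def U (v : ℝ × ℝ) : ℝ := Real.sqrt (P.S v)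

/-- The function `u` on Euclidean space. -/
noncomputable def u (p : E (k + 1)) : ℝ := P.U (zf p, tf p)

theorem S_pos {v : ℝ × ℝ} (hv : 0 ≤ v.1) : 0 < P.S v := by
  have := P.F_pos v.1 hv
  unfold S; positivity

theorem U_pos {v : ℝ × ℝ} (hv : 0 ≤ v.1) : 0 < P.U v := Real.sqrt_pos.mpr (P.S_pos hv)

theorem U_sq {v : ℝ × ℝ} (hv : 0 ≤ v.1) : P.U v ^ 2 = v.2 ^ 2 + P.F v.1 :=
  Real.sq_sqrt (P.S_pos hv).le

theorem hS {v : ℝ × ℝ} (hv : 0 ≤ v.1) : HasFDerivAt P.S (LF (P.x v.1 * P.F v.1) (2 * v.2)) v := by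
  have h1 : HasFDerivAt (fun v : ℝ × ℝ => v.2 ^ 2) (LF 0 (2 * v.2)) v := by
    have := LF_snd (f := fun t => t ^ 2) (v := v) (by simpa using hasDerivAt_pow 2 v.2)
    exact this
  have h2 := LF_fst (v := v) (P.hF v.1 hv)
  exact LF_congr (LF_add h1 h2) (by ring) (by ring)

theorem hU {v : ℝ × ℝ} (hv : 0 ≤ v.1) :
    HasFDerivAt P.U (LF (P.x v.1 * P.F v.1 / (2 * P.U v)) (v.2 / P.U v)) v := by
  have h := LF_comp (P.hS hv) (Real.hasDerivAt_sqrt (P.S_pos hv).ne')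
  refine LF_congr h ?_ ?_
  · change 1 / (2 * P.U v) * _ = _
    ring
  · change 1 / (2 * P.U v) * _ = _
    have := (P.U_pos hv).ne'
    field_simp

theorem hUinv {v : ℝ × ℝ} (hv : 0 ≤ v.1) :
    HasFDerivAt (fun v => (P.U v)⁻¹)
      (LF (-(P.x v.1 * P.F v.1) / (2 * P.U v ^ 3)) (-v.2 / P.U v ^ 3)) v := by
  have hU0 := (P.U_pos hv).ne'
  have h := LF_comp (P.hU hv) (hasDerivAt_inv hU0)
  refine LF_congr h ?_ ?_ <;> field_simp

/-- First `z`-derivative of `U`. -/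
noncomputable def Uz (v : ℝ × ℝ) : ℝ := P.x v.1 * P.F v.1 / 2 * (P.U v)⁻¹

/-- First `t`-derivative of `U`. -/
noncomputable def Ut (v : ℝ × ℝ) : ℝ := v.2 * (P.U v)⁻¹

theorem hxF {z : ℝ} (hz : 0 ≤ z) :
    HasDerivAt (fun z => P.x z * P.F z / 2) (P.x z * (P.x z + P.y z) * P.F z / 4) z := by
  have h := ((P.hx z hz).mul (P.hF z hz)).div_const 2
  refine h.congr_deriv ?_
  ring

theorem hUz {v : ℝ × ℝ} (hv : 0 ≤ v.1) :
    HasFDerivAt P.Uz (LF (P.x v.1 * (P.x v.1 + P.y v.1) * P.F v.1 / (4 * P.U v)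
        - P.x v.1 ^ 2 * P.F v.1 ^ 2 / (4 * P.U v ^ 3))
      (-(P.x v.1 * P.F v.1 * v.2) / (2 * P.U v ^ 3))) v := by
  have hU0 := (P.U_pos hv).ne'
  have h := LF_mul (LF_fst (v := v) (P.hxF hv)) (P.hUinv hv)
  refine LF_congr h ?_ ?_
  · field_simp; ring
  · field_simp; ring

theorem hUt {v : ℝ × ℝ} (hv : 0 ≤ v.1) :
    HasFDerivAt P.Ut (LF (-(P.x v.1 * P.F v.1 * v.2) / (2 * P.U v ^ 3))
      (P.F v.1 / P.U v ^ 3)) v := by
  have hU0 := (P.U_pos hv).ne'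
  have h := LF_mul (LF_snd (v := v) (hasDerivAt_id v.2)) (P.hUinv hv)
  refine LF_congr h ?_ ?_
  · simp only [id]; field_simp; ring
  · simp only [id]
    have := P.U_sq hv
    field_simp
    linear_combination this

theorem hess_u (p : E (k + 1)) :
    hess P.u p = SM (P.x (zf p) * P.F (zf p) / P.u p)
      (P.x (zf p) * (P.x (zf p) + P.y (zf p)) * P.F (zf p) / P.u p
        - P.x (zf p) ^ 2 * P.F (zf p) ^ 2 / P.u p ^ 3)
      (-(P.x (zf p) * P.F (zf p) * tf p) / P.u p ^ 3)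
      (P.F (zf p) / P.u p ^ 3) (fun i => p i.castSucc) := by
  have h1 : ∀ p : E (k + 1), HasFDerivAt P.u
      (P.Uz (zf p, tf p) • dz p + P.Ut (zf p, tf p) • dt) p := by
    intro p
    have hv : (0 : ℝ) ≤ (zf p, tf p).1 := zf_nonneg p
    have := hasFDerivAt_comp_zt p (P.hU hv)
    refine this.congr_fderiv ?_
    unfold Uz Ut
    congr 2
    · rw [div_mul_eq_div_div, ← div_eq_mul_inv]
  have hv : (0 : ℝ) ≤ (zf p, tf p).1 := zf_nonneg p
  have h := hess_comp_zt h1 p (P.hUz hv) (P.hUt hv)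
  have hu : P.U (zf p, tf p) = P.u p := rfl
  have hu0 : P.u p ≠ 0 := (P.U_pos hv).ne'
  rw [h]
  congr 1
  · simp only [Uz, hu]; field_simp
  · simp only [hu]; field_simp
  · simp only [hu]; field_simp

theorem u_pos (p : E (k + 1)) : 0 < P.u p := P.U_pos (v := (zf p, tf p)) (zf_nonneg p)

theorem u_sq (p : E (k + 1)) : P.u p ^ 2 = tf p ^ 2 + P.F (zf p) :=
  P.U_sq (v := (zf p, tf p)) (zf_nonneg p)

/-- The determinant factor `Delta`. -/
theorem delta_eq (p : E (k + 1)) :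
    (P.x (zf p) * P.F (zf p) / P.u p
      + (P.x (zf p) * (P.x (zf p) + P.y (zf p)) * P.F (zf p) / P.u p
        - P.x (zf p) ^ 2 * P.F (zf p) ^ 2 / P.u p ^ 3) * zf p) * (P.F (zf p) / P.u p ^ 3)
      - (-(P.x (zf p) * P.F (zf p) * tf p) / P.u p ^ 3) ^ 2 * zf p
      = P.x (zf p) * P.F (zf p) ^ 2 * (1 + zf p * P.y (zf p)) / P.u p ^ 4 := by
  have hu0 := (P.u_pos p).ne'
  have hsq := P.u_sq p
  field_simp
  linear_combination (P.x (zf p) ^ 2 * P.F (zf p) ^ 2 * zf p) * hsq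

theorem det_hess_u (hk : 1 ≤ k) (p : E (k + 1)) :
    (hess P.u p).det = P.x (zf p) ^ k * P.F (zf p) ^ (k + 1) * (1 + zf p * P.y (zf p))
      / P.u p ^ (k + 3) := by
  have hu0 := (P.u_pos p).ne'
  have hx0 := (P.x_pos _ (zf_nonneg p)).ne'
  have hF0 := (P.F_pos _ (zf_nonneg p)).ne'
  rw [hess_u, det_SM hk _ _ _ _ (by positivity) (by positivity)]
  have hz : ∑ i : Fin k, (p i.castSucc) ^ 2 = zf p := rfl
  rw [hz, delta_eq]
  obtain ⟨m, rfl⟩ : ∃ m, k = m + 1 := ⟨k - 1, by omega⟩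
  simp only [Nat.add_sub_cancel, div_pow, mul_pow]
  field_simp
  ring

theorem hess_u_posDef (p : E (k + 1)) : (hess P.u p).PosDef := by
  have hu0 := P.u_pos p
  have hx0 := P.x_pos _ (zf_nonneg p)
  have hF0 := P.F_pos _ (zf_nonneg p)
  have hY0 := P.Y_pos _ (zf_nonneg p)
  rw [hess_u]
  apply SM_posDef
  · positivity
  · positivity
  · have hz : ∑ i : Fin k, (p i.castSucc) ^ 2 = zf p := rfl
    rw [hz, delta_eq]
    positivity

/-- `Q = x^k F^(k+1) Y`. -/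
noncomputable def Q (z : ℝ) : ℝ := P.x z ^ k * P.F z ^ (k + 1) * (1 + z * P.y z)

/-- `W = Q^(-(k+2)/(k+3))`. -/
noncomputable def W (z : ℝ) : ℝ := P.Q z ^ (-((k : ℝ) + 2) / ((k : ℝ) + 3))

theorem Q_pos {z : ℝ} (hz : 0 ≤ z) : 0 < P.Q z := by
  have hx0 := P.x_pos _ hz
  have hF0 := P.F_pos _ hz
  have hY0 := P.Y_pos _ hz
  unfold Q; positivity

theorem hQ {z : ℝ} (hz : 0 ≤ z) :
    HasDerivAt P.Q (P.Q z * (((k : ℝ) + 3) * (P.x z + P.q z) / 2)) z := by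
  have hx0 := P.x_pos _ hz
  have hY : HasDerivAt (fun s => 1 + s * P.y s)
      ((1 + z * P.y z) * (-(k : ℝ) * P.y z + P.x z + ((k : ℝ) + 3) * P.q z) / 2) z :=
    (P.hY z hz).const_add 1
  have h := (((P.hx z hz).pow k).mul ((P.hF z hz).pow (k + 1))).mul hY
  refine h.congr_deriv ?_
  simp only [Pi.mul_apply, Pi.pow_apply, Nat.add_sub_cancel, Q]
  have hk : (k : ℝ) * P.x z ^ (k - 1) * P.x z = k * P.x z ^ k := by
    rcases Nat.eq_zero_or_pos k with h0 | h0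
    · subst h0; simp
    · obtain ⟨m, rfl⟩ : ∃ m, k = m + 1 := ⟨k - 1, by omega⟩
      simp only [Nat.add_sub_cancel, pow_succ]; ring
  push_cast
  linear_combination ((P.y z - P.x z) / 2 * P.F z ^ (k + 1) * (1 + z * P.y z)) * hk

theorem hW {z : ℝ} (hz : 0 ≤ z) :
    HasDerivAt P.W (-(((k : ℝ) + 2) / 2) * (P.x z + P.q z) * P.W z) z := by
  have hQ0 := P.Q_pos hz
  have h := (P.hQ hz).rpow_const (p := -((k : ℝ) + 2) / ((k : ℝ) + 3)) (Or.inl hQ0.ne')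
  refine h.congr_deriv ?_
  have hk3 : (k : ℝ) + 3 ≠ 0 := by positivity
  rw [Real.rpow_sub_one hQ0.ne']
  unfold W
  field_simp

/-- `w` as a function of `(z,t)`. -/
noncomputable def w (v : ℝ × ℝ) : ℝ := P.U v ^ (k + 2) * P.W v.1

theorem wfun_eq (hk : 1 ≤ k) : wfun P.u = fun p => P.w (zf p, tf p) := by
  funext p
  have hu0 := P.u_pos p
  have hx0 := P.x_pos _ (zf_nonneg p)
  have hF0 := P.F_pos _ (zf_nonneg p)
  have hY0 := P.Y_pos _ (zf_nonneg p)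
  have hQ0 := P.Q_pos (zf_nonneg p)
  rw [wfun, det_hess_u P hk]
  have h1 : P.x (zf p) ^ k * P.F (zf p) ^ (k + 1) * (1 + zf p * P.y (zf p)) = P.Q (zf p) := rfl
  rw [h1]
  have hexp : -(((k + 1 : ℕ) : ℝ) + 1) / (((k + 1 : ℕ) : ℝ) + 2)
      = -((k : ℝ) + 2) / ((k : ℝ) + 3) := by
    push_cast; ring
  rw [hexp, Real.div_rpow hQ0.le (by positivity)]
  have h2 : (P.u p ^ (k + 3)) ^ (-((k : ℝ) + 2) / ((k : ℝ) + 3)) = (P.u p ^ (k + 2))⁻¹ := by
    rw [← Real.rpow_natCast (P.u p) (k + 3), ← Real.rpow_mul hu0.le,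
      ← Real.rpow_natCast (P.u p) (k + 2), ← Real.rpow_neg hu0.le]
    congr 1
    have hk3 : (k : ℝ) + 3 ≠ 0 := by positivity
    push_cast
    field_simp
  rw [h2]
  simp only [w, W]
  change _ = P.u p ^ (k + 2) * _
  rw [div_inv_eq_mul, mul_comm]

/-- `tau = t^2 / S`. -/
noncomputable def tau (v : ℝ × ℝ) : ℝ := v.2 ^ 2 * (P.S v)⁻¹

/-- `phi = q + x tau`. -/
noncomputable def phi (v : ℝ × ℝ) : ℝ := P.q v.1 + P.x v.1 * P.tau v

/-- First `z`-derivative of `w`. -/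
noncomputable def wz (v : ℝ × ℝ) : ℝ := (-(((k : ℝ) + 2) / 2) * P.w v) * P.phi v

/-- First `t`-derivative of `w`. -/
noncomputable def wt (v : ℝ × ℝ) : ℝ := (((k : ℝ) + 2) * P.w v) * (v.2 * (P.S v)⁻¹)

theorem hSinv {v : ℝ × ℝ} (hv : 0 ≤ v.1) :
    HasFDerivAt (fun v => (P.S v)⁻¹)
      (LF (-(P.x v.1 * P.F v.1) / P.S v ^ 2) (-(2 * v.2) / P.S v ^ 2)) v := by
  have hS0 := (P.S_pos hv).ne'
  have h := LF_comp (P.hS hv) (hasDerivAt_inv hS0)
  refine LF_congr h ?_ ?_ <;> field_simp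

theorem htau {v : ℝ × ℝ} (hv : 0 ≤ v.1) :
    HasFDerivAt P.tau (LF (-(P.x v.1 * P.tau v * (1 - P.tau v)))
      (2 * v.2 * (P.S v)⁻¹ * (1 - P.tau v))) v := by
  have hS0 := (P.S_pos hv).ne'
  have h1 : HasFDerivAt (fun v : ℝ × ℝ => v.2 ^ 2) (LF 0 (2 * v.2)) v :=
    LF_snd (f := fun t => t ^ 2) (v := v) (by simpa using hasDerivAt_pow 2 v.2)
  have h := LF_mul h1 (P.hSinv hv)
  have hSdef : P.S v = v.2 ^ 2 + P.F v.1 := rfl
  refine LF_congr h ?_ ?_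
  · simp only [tau]
    field_simp
    rw [hSdef]; ring
  · simp only [tau]
    field_simp
    ring

theorem hw {v : ℝ × ℝ} (hv : 0 ≤ v.1) : HasFDerivAt P.w (LF (P.wz v) (P.wt v)) v := by
  have hU0 := (P.U_pos hv).ne'
  have hS0 := (P.S_pos hv).ne'
  have hpow : HasDerivAt (fun s : ℝ => s ^ (k + 2)) (((k + 2 : ℕ) : ℝ) * P.U v ^ (k + 1))
      (P.U v) := by
    simpa using hasDerivAt_pow (k + 2) (P.U v)
  have h := LF_mul (LF_comp (P.hU hv) hpow) (LF_fst (v := v) (P.hW hv))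
  have hSU : P.S v = P.U v ^ 2 := by rw [P.U_sq hv]; rfl
  have hsq := P.U_sq hv
  refine LF_congr h ?_ ?_
  · simp only [wz, w, phi, tau, hSU]
    push_cast
    field_simp
    rw [show P.F v.1 = P.U v ^ 2 - v.2 ^ 2 by rw [hsq]; ring]
    ring
  · simp only [wt, w, hSU]
    push_cast
    field_simp
    ring

theorem hphi {v : ℝ × ℝ} (hv : 0 ≤ v.1) {q' : ℝ} (hq' : HasDerivAt P.q q' v.1) :
    HasFDerivAt P.phi (LF (q' + P.x v.1 * (P.y v.1 - P.x v.1) / 2 * P.tau v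
        - P.x v.1 ^ 2 * P.tau v * (1 - P.tau v))
      (P.x v.1 * (2 * v.2 * (P.S v)⁻¹ * (1 - P.tau v)))) v := by
  have h := LF_add (LF_fst (v := v) hq') (LF_mul (LF_fst (v := v) (P.hx v.1 hv)) (P.htau hv))
  refine LF_congr h ?_ ?_ <;> ring

theorem hwz {v : ℝ × ℝ} (hv : 0 ≤ v.1) {q' : ℝ} (hq' : HasDerivAt P.q q' v.1) :
    HasFDerivAt P.wz (LF ((((k : ℝ) + 2) / 2) * P.w v * ((((k : ℝ) + 2) / 2) * P.phi v ^ 2
        - (q' + P.x v.1 * (P.y v.1 - P.x v.1) / 2 * P.tau v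
        - P.x v.1 ^ 2 * P.tau v * (1 - P.tau v))))
      (-(((k : ℝ) + 2) / 2) * P.w v * (v.2 * (P.S v)⁻¹) * (((k : ℝ) + 2) * P.phi v
        + 2 * P.x v.1 * (1 - P.tau v)))) v := by
  have hc : HasFDerivAt (fun _ : ℝ × ℝ => -(((k : ℝ) + 2) / 2)) (LF 0 0) v := by
    refine (hasFDerivAt_const (-(((k : ℝ) + 2) / 2)) v).congr_fderiv ?_
    ext <;> simp [LF]
  have h := LF_mul (LF_mul hc (P.hw hv)) (P.hphi hv hq')
  refine LF_congr h ?_ ?_
  · simp only [wz]; ring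
  · simp only [wt]; ring

theorem hwt {v : ℝ × ℝ} (hv : 0 ≤ v.1) :
    HasFDerivAt P.wt (LF (-(((k : ℝ) + 2) / 2) * P.w v * (v.2 * (P.S v)⁻¹)
        * (((k : ℝ) + 2) * P.phi v + 2 * P.x v.1 * (1 - P.tau v)))
      (((k : ℝ) + 2) * P.w v * (P.S v)⁻¹ * (k * P.tau v + 1))) v := by
  have hS0 := (P.S_pos hv).ne'
  have hc : HasFDerivAt (fun _ : ℝ × ℝ => ((k : ℝ) + 2)) (LF 0 0) v := by
    refine (hasFDerivAt_const ((k : ℝ) + 2) v).congr_fderiv ?_
    ext <;> simp [LF]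
  have h := LF_mul (LF_mul hc (P.hw hv))
    (LF_mul (LF_snd (v := v) (hasDerivAt_id v.2)) (P.hSinv hv))
  have hSdef : P.S v = v.2 ^ 2 + P.F v.1 := rfl
  refine LF_congr h ?_ ?_
  · simp only [wz, id, tau]
    field_simp
    rw [show P.F v.1 = P.S v - v.2 ^ 2 by rw [hSdef]; ring]
    ring
  · simp only [wt, id, tau]
    field_simp
    ring

theorem hess_w (hk : 1 ≤ k) (p : E (k + 1)) {q' : ℝ} (hq' : HasDerivAt P.q q' (zf p)) :
    hess (wfun P.u) p = SM (2 * P.wz (zf p, tf p))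
      (4 * ((((k : ℝ) + 2) / 2) * P.w (zf p, tf p) * ((((k : ℝ) + 2) / 2) * P.phi (zf p, tf p) ^ 2
        - (q' + P.x (zf p) * (P.y (zf p) - P.x (zf p)) / 2 * P.tau (zf p, tf p)
        - P.x (zf p) ^ 2 * P.tau (zf p, tf p) * (1 - P.tau (zf p, tf p))))))
      (2 * (-(((k : ℝ) + 2) / 2) * P.w (zf p, tf p) * (tf p * (P.S (zf p, tf p))⁻¹)
        * (((k : ℝ) + 2) * P.phi (zf p, tf p)
        + 2 * P.x (zf p) * (1 - P.tau (zf p, tf p)))))
      (((k : ℝ) + 2) * P.w (zf p, tf p) * (P.S (zf p, tf p))⁻¹ * (k * P.tau (zf p, tf p) + 1))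
      (fun i => p i.castSucc) := by
  rw [wfun_eq P hk]
  have h1 : ∀ p : E (k + 1), HasFDerivAt (fun p : E (k + 1) => P.w (zf p, tf p))
      (P.wz (zf p, tf p) • dz p + P.wt (zf p, tf p) • dt) p := fun p =>
    hasFDerivAt_comp_zt p (P.hw (v := (zf p, tf p)) (zf_nonneg p))
  exact hess_comp_zt h1 p (P.hwz (v := (zf p, tf p)) (zf_nonneg p) hq')
    (P.hwt (v := (zf p, tf p)) (zf_nonneg p))

theorem affineMaximal (hk : 1 ≤ k) (p : E (k + 1)) : AffineMaximalAt P.u p := by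
  have hz0 := zf_nonneg p
  obtain ⟨q', hq', hqe⟩ := P.hq (zf p) hz0
  have hu0 := P.u_pos p
  have hx0 := P.x_pos _ hz0
  have hF0 := P.F_pos _ hz0
  have hY0 := P.Y_pos _ hz0
  have hS0 := P.S_pos (v := (zf p, tf p)) hz0
  have hsum : ∑ i, ∑ j, (hess P.u p)⁻¹ i j * hess (wfun P.u) p i j = 0 := by
    rw [hess_w P hk p hq', hess_u]
    have hz : ∑ i : Fin k, (p i.castSucc) ^ 2 = zf p := rfl
    rw [SM_inv_contract _ _ _ _ _ _ _ _ _ (zf p) hz (by positivity)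
      (by rw [delta_eq]; positivity)]
    rw [delta_eq]
    have hSu : P.S (zf p, tf p) = P.u p ^ 2 := by rw [P.u_sq p]; rfl
    have hw0 : P.wz (zf p, tf p) = (-(((k : ℝ) + 2) / 2) * P.w (zf p, tf p)) * P.phi (zf p, tf p) :=
      rfl
    rw [hw0]
    have htau : P.tau (zf p, tf p) * P.u p ^ 2 = tf p ^ 2 := by
      simp only [tau, hSu]
      field_simp
    have hphi : P.phi (zf p, tf p) = P.q (zf p) + P.x (zf p) * P.tau (zf p, tf p) := rfl
    rw [hphi, hSu]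
    have hFu : P.F (zf p) = P.u p ^ 2 * (1 - P.tau (zf p, tf p)) := by
      have := P.u_sq p
      linear_combination -this + htau
    generalize P.tau (zf p, tf p) = τ at *
    generalize P.w (zf p, tf p) = w at *
    generalize P.x (zf p) = x at *
    generalize P.y (zf p) = y at *
    generalize P.q (zf p) = q at *
    generalize P.F (zf p) = F at *
    generalize P.u p = u at *
    generalize tf p = t at *
    generalize zf p = z at *
    have h1 : (k : ℝ) + 2 ≠ 0 := by positivity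
    have hτ1 : 1 - τ ≠ 0 := by
      intro h0
      rw [h0, mul_zero] at hFu
      exact hF0.ne' hFu
    have hu1 := hu0.ne'
    have hx1 := hx0.ne'
    have hY1 : 1 + y * z ≠ 0 := by rw [mul_comm]; exact hY0.ne'
    rw [hFu]
    field_simp
    linear_combination (8 * ((k : ℝ) + 2) * w * x * z * (((k : ℝ) + 2) * (q + x * τ)
      + 2 * x * (1 - τ))) * htau - 4 * ((k : ℝ) + 2) * w * u ^ 2 * hqe
  unfold AffineMaximalAt
  have : ∀ i j, ((hess P.u p).det * (hess P.u p)⁻¹ i j) * pd i (pd j (wfun P.u)) p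
      = (hess P.u p).det * ((hess P.u p)⁻¹ i j * hess (wfun P.u) p i j) := by
    intro i j
    simp only [hess, Matrix.of_apply]
    ring
  simp only [this, ← Finset.mul_sum]
  rw [hsum, mul_zero]

end Profile

end Vale.Agent.P252
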