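import Vale.Agent.P252.Geom

/-!
From a profile to a nonquadratic entire solution of the affine maximal equation (P252).
-/

namespace Vale.Agent.P252

open scoped ContDiff

namespace Profile

variable {k : ℕ} (P : Profile k)

theorem contDiff_zf : ContDiff ℝ ∞ (zf : E (k + 1) → ℝ) := by
  unfold zf
  refine ContDiff.sum fun i _ => ?_
  exact ((EuclideanSpace.proj (𝕜 := ℝ) i.castSucc : E (k + 1) →L[ℝ] ℝ).contDiff).pow 2

theorem contDiff_tf : ContDiff ℝ ∞ (tf : E (k + 1) → ℝ) :=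
  (EuclideanSpace.proj (𝕜 := ℝ) (Fin.last k) : E (k + 1) →L[ℝ] ℝ).contDiff

theorem contDiff_u : ContDiff ℝ ∞ P.u := by
  rw [contDiff_iff_contDiffAt]
  intro p
  have h1 : ContDiffAt ℝ ∞ (fun p : E (k + 1) => tf p ^ 2 + P.F (zf p)) p :=
    (contDiff_tf.contDiffAt.pow 2).add
      ((P.F_smooth (zf p) (zf_nonneg p)).comp p contDiff_zf.contDiffAt)
  exact h1.sqrt (P.S_pos (v := (zf p, tf p)) (zf_nonneg p)).ne'

theorem not_isQuadratic : ¬ IsQuadratic P.u := by
  rintro ⟨A, b, c, h⟩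
  have hF0 := P.F_pos 0 le_rfl
  -- restrict to the last axis
  have key : ∀ t : ℝ, Real.sqrt (t ^ 2 + P.F 0)
      = (1 / 2 * A (Fin.last k) (Fin.last k)) * t ^ 2 + b (Fin.last k) * t + c := by
    intro t
    have h1 := h (EuclideanSpace.single (Fin.last k) t)
    have hz : zf (EuclideanSpace.single (Fin.last k) t : E (k + 1)) = 0 := by
      unfold zf
      refine Finset.sum_eq_zero fun i _ => ?_
      simp [(Fin.castSucc_lt_last i).ne]
    have ht : tf (EuclideanSpace.single (Fin.last k) t : E (k + 1)) = t := by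
      simp [tf]
    have hu : P.u (EuclideanSpace.single (Fin.last k) t : E (k + 1))
        = Real.sqrt (t ^ 2 + P.F 0) := by
      simp only [u, U, S, hz, ht]
    rw [hu] at h1
    rw [h1]
    have hs : ∀ i : Fin (k + 1), (EuclideanSpace.single (Fin.last k) t : E (k + 1)) i
        = if i = Fin.last k then t else 0 := by
      intro i
      simp
    simp only [hs, mul_ite, mul_zero, Finset.sum_ite_eq', Finset.mem_univ, if_true, ite_mul,
      zero_mul]
    ring
  set α := 1 / 2 * A (Fin.last k) (Fin.last k) with hα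
  set β := b (Fin.last k) with hβ
  have k1 := key 1
  have k2 := key (-1)
  have k0 := key 0
  have k3 := key 2
  have hβ0 : β = 0 := by
    have : Real.sqrt ((1 : ℝ) ^ 2 + P.F 0) = Real.sqrt ((-1 : ℝ) ^ 2 + P.F 0) := by norm_num
    rw [k1, k2] at this
    linarith
  rw [hβ0] at k1 k3 k0
  have s0 : Real.sqrt ((0 : ℝ) ^ 2 + P.F 0) ^ 2 = 0 ^ 2 + P.F 0 := Real.sq_sqrt (by positivity)
  have s1 : Real.sqrt ((1 : ℝ) ^ 2 + P.F 0) ^ 2 = 1 ^ 2 + P.F 0 := Real.sq_sqrt (by positivity)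
  have s2 : Real.sqrt ((2 : ℝ) ^ 2 + P.F 0) ^ 2 = 2 ^ 2 + P.F 0 := Real.sq_sqrt (by positivity)
  rw [k0] at s0
  rw [k1] at s1
  rw [k3] at s2
  have e1 : α ^ 2 + 2 * α * c = 1 := by nlinarith
  have e2 : 4 * α ^ 2 + 2 * α * c = 1 := by nlinarith
  have e3 : α = 0 := by
    have : α ^ 2 = 0 := by linarith
    exact pow_eq_zero_iff (two_ne_zero) |>.mp this
  rw [e3] at e1
  norm_num at e1

end Profile

/-- From a profile to a smooth entire locally uniformly convex nonquadratic solution. -/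
theorem exists_of_profile {k : ℕ} (hk : 1 ≤ k) (P : Profile k) :
    ∃ u : E (k + 1) → ℝ, ContDiff ℝ ∞ u ∧ (∀ p, (hess u p).PosDef) ∧
      (∀ p, AffineMaximalAt u p) ∧ ¬ IsQuadratic u :=
  ⟨P.u, P.contDiff_u, P.hess_u_posDef, P.affineMaximal hk, P.not_isQuadratic⟩

end Vale.Agent.P252
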