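import Mathlib

/-!
Local analytic solution of the regular-singular system (P252, task A1).
-/

namespace Vale.Agent.P252.Loc

open PowerSeries Finset

/-- weighted finite sums of absolute values of coefficients -/
noncomputable def A (d : ℝ) (p : PowerSeries ℝ) (N : ℕ) : ℝ :=
  ∑ n ∈ range (N + 1), |coeff n p| * d ^ n

lemma A_nonneg {d : ℝ} (hd : 0 ≤ d) (p : PowerSeries ℝ) (N : ℕ) : 0 ≤ A d p N :=
  Finset.sum_nonneg fun n _ => by positivity

lemma A_mono {d : ℝ} (hd : 0 ≤ d) (p : PowerSeries ℝ) (N : ℕ) : A d p N ≤ A d p (N + 1) := by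
  unfold A
  rw [Finset.sum_range_succ _ (N + 1)]
  have : 0 ≤ |coeff (N + 1) p| * d ^ (N + 1) := by positivity
  linarith

lemma A_add_le {d : ℝ} (hd : 0 ≤ d) (p q : PowerSeries ℝ) (N : ℕ) :
    A d (p + q) N ≤ A d p N + A d q N := by
  unfold A
  rw [← Finset.sum_add_distrib]
  apply Finset.sum_le_sum
  intro n _
  rw [← add_mul]
  apply mul_le_mul_of_nonneg_right _ (by positivity)
  rw [map_add]
  exact abs_add_le _ _

lemma A_smul {d : ℝ} (c : ℝ) (p : PowerSeries ℝ) (N : ℕ) :
    A d (c • p) N = |c| * A d p N := by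
  unfold A
  rw [Finset.mul_sum]
  apply Finset.sum_congr rfl
  intro n _
  rw [PowerSeries.coeff_smul, smul_eq_mul, abs_mul]
  ring

lemma A_X_mul_succ {d : ℝ} (p : PowerSeries ℝ) (N : ℕ) :
    A d (X * p) (N + 1) = d * A d p N := by
  unfold A
  rw [Finset.sum_range_succ']
  simp only [PowerSeries.coeff_succ_X_mul, PowerSeries.coeff_zero_X_mul, abs_zero, zero_mul,
    add_zero]
  rw [Finset.mul_sum]
  apply Finset.sum_congr rfl
  intro n _
  ring

lemma A_X_mul_le {d : ℝ} (hd : 0 ≤ d) (p : PowerSeries ℝ) (N : ℕ) :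
    A d (X * p) N ≤ d * A d p N := by
  rw [← A_X_mul_succ]
  exact A_mono hd _ _

lemma sum_antidiagonal_le (u v : ℕ → ℝ) (hu : ∀ n, 0 ≤ u n) (hv : ∀ n, 0 ≤ v n) (N : ℕ) :
    ∑ n ∈ range (N + 1), ∑ p ∈ antidiagonal n, u p.1 * v p.2 ≤
      (∑ n ∈ range (N + 1), u n) * (∑ n ∈ range (N + 1), v n) := by
  rw [Finset.sum_mul_sum, ← Finset.sum_product', Finset.sum_sigma']
  have hinj : Set.InjOn (fun x : (Σ _ : ℕ, ℕ × ℕ) => x.2)
      ((range (N + 1)).sigma fun n => antidiagonal n : Finset (Σ _ : ℕ, ℕ × ℕ)) := by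
    rintro ⟨n, i, j⟩ h1 ⟨m, i', j'⟩ h2 h
    simp only [Finset.coe_sigma, Set.mem_sigma_iff, Finset.mem_coe,
      Finset.HasAntidiagonal.mem_antidiagonal] at h1 h2
    have h' : (i, j) = (i', j') := h
    simp only [Prod.mk.injEq] at h'
    obtain ⟨rfl, rfl⟩ := h'
    have : n = m := by
      have a1 : i + j = n := h1.2
      have a2 : i + j = m := h2.2
      omega
    subst this
    rfl
  calc ∑ x ∈ (range (N + 1)).sigma fun n => antidiagonal n, u x.2.1 * v x.2.2
      = ∑ y ∈ ((range (N + 1)).sigma fun n => antidiagonal n).image (fun x => x.2),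
          u y.1 * v y.2 := by
        rw [Finset.sum_image hinj]
    _ ≤ ∑ y ∈ range (N + 1) ×ˢ range (N + 1), u y.1 * v y.2 := by
        apply Finset.sum_le_sum_of_subset_of_nonneg
        · intro y hy
          simp only [Finset.mem_image, Finset.mem_sigma, Finset.mem_range,
            Finset.HasAntidiagonal.mem_antidiagonal] at hy
          obtain ⟨x, ⟨h1, h2⟩, rfl⟩ := hy
          simp only [Finset.mem_product, Finset.mem_range]
          omega
        · intro y _ _
          exact mul_nonneg (hu _) (hv _)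

lemma A_mul_le {d : ℝ} (hd : 0 ≤ d) (p q : PowerSeries ℝ) (N : ℕ) :
    A d (p * q) N ≤ A d p N * A d q N := by
  refine le_trans ?_ (sum_antidiagonal_le (fun n => |coeff n p| * d ^ n)
    (fun n => |coeff n q| * d ^ n) (fun n => by positivity) (fun n => by positivity) N)
  unfold A
  apply Finset.sum_le_sum
  intro n _
  rw [PowerSeries.coeff_mul]
  calc |∑ x ∈ antidiagonal n, coeff x.1 p * coeff x.2 q| * d ^ n
      ≤ (∑ x ∈ antidiagonal n, |coeff x.1 p * coeff x.2 q|) * d ^ n :=
        mul_le_mul_of_nonneg_right (Finset.abs_sum_le_sum_abs _ _) (by positivity)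
    _ = ∑ x ∈ antidiagonal n, |coeff x.1 p| * d ^ x.1 * (|coeff x.2 q| * d ^ x.2) := by
        rw [Finset.sum_mul]
        apply Finset.sum_congr rfl
        intro x hx
        rw [Finset.HasAntidiagonal.mem_antidiagonal] at hx
        rw [abs_mul, ← hx, pow_add]
        ring

/-- summability class -/
def Sm (d : ℝ) (p : PowerSeries ℝ) : Prop := Summable fun n => |coeff n p| * d ^ n

lemma Sm_of_bound {d : ℝ} (hd : 0 ≤ d) (p : PowerSeries ℝ) (C : ℝ) (h : ∀ N, A d p N ≤ C) :
    Sm d p := by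
  apply summable_of_sum_range_le (c := C)
  · intro n; positivity
  · intro n
    refine le_trans ?_ (h n)
    unfold A
    rw [Finset.sum_range_succ]
    have : 0 ≤ |coeff n p| * d ^ n := by positivity
    linarith

/-- evaluation -/
noncomputable def ev (p : PowerSeries ℝ) (z : ℝ) : ℝ := ∑' n, coeff n p * z ^ n

lemma Sm.norm {d : ℝ} {p : PowerSeries ℝ} (h : Sm d p) {z : ℝ} (hz : |z| ≤ d) :
    Summable fun n => ‖coeff n p * z ^ n‖ := by
  apply Summable.of_nonneg_of_le (fun n => norm_nonneg _) _ h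
  intro n
  rw [Real.norm_eq_abs, abs_mul, abs_pow]
  exact mul_le_mul_of_nonneg_left (pow_le_pow_left₀ (abs_nonneg _) hz n) (abs_nonneg _)

lemma Sm.summable {d : ℝ} {p : PowerSeries ℝ} (h : Sm d p) {z : ℝ} (hz : |z| ≤ d) :
    Summable fun n => coeff n p * z ^ n := (h.norm hz).of_norm

lemma Sm.add {d : ℝ} {p q : PowerSeries ℝ} (hd : 0 ≤ d) (hp : Sm d p) (hq : Sm d q) :
    Sm d (p + q) := by
  apply Summable.of_nonneg_of_le (fun n => by positivity) _ (Summable.add hp hq)
  intro n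
  rw [← add_mul, map_add]
  exact mul_le_mul_of_nonneg_right (abs_add_le _ _) (by positivity)

lemma Sm.smul {d : ℝ} {p : PowerSeries ℝ} (c : ℝ) (hp : Sm d p) : Sm d (c • p) := by
  have := Summable.mul_left |c| hp
  refine this.congr ?_
  intro n
  rw [PowerSeries.coeff_smul, smul_eq_mul, abs_mul]
  ring

lemma Sm.mul {d : ℝ} {p q : PowerSeries ℝ} (hd : 0 ≤ d) (hp : Sm d p) (hq : Sm d q) :
    Sm d (p * q) := by
  have hdd : |d| ≤ d := by rw [abs_of_nonneg hd]
  have := summable_norm_sum_mul_antidiagonal_of_summable_norm (hp.norm hdd) (hq.norm hdd)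
  refine this.congr ?_
  intro n
  rw [PowerSeries.coeff_mul, Real.norm_eq_abs]
  have : ∑ kl ∈ antidiagonal n, coeff kl.1 p * d ^ kl.1 * (coeff kl.2 q * d ^ kl.2) =
      (∑ kl ∈ antidiagonal n, coeff kl.1 p * coeff kl.2 q) * d ^ n := by
    rw [Finset.sum_mul]
    apply Finset.sum_congr rfl
    intro x hx
    rw [Finset.HasAntidiagonal.mem_antidiagonal] at hx
    rw [← hx, pow_add]
    ring
  rw [this, abs_mul, abs_pow, abs_of_nonneg hd]

lemma Sm.X_mul {d : ℝ} {p : PowerSeries ℝ} (hp : Sm d p) : Sm d (X * p) := by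
  unfold Sm
  rw [← summable_nat_add_iff 1]
  have := Summable.mul_left d hp
  refine this.congr ?_
  intro n
  rw [PowerSeries.coeff_succ_X_mul]
  ring

lemma ev_add {d : ℝ} {p q : PowerSeries ℝ} (hp : Sm d p) (hq : Sm d q) {z : ℝ} (hz : |z| ≤ d) :
    ev (p + q) z = ev p z + ev q z := by
  unfold ev
  rw [← Summable.tsum_add (hp.summable hz) (hq.summable hz)]
  congr 1
  ext n
  rw [map_add]; ring

lemma ev_smul (c : ℝ) (p : PowerSeries ℝ) (z : ℝ) : ev (c • p) z = c * ev p z := by
  unfold ev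
  rw [← tsum_mul_left]
  congr 1
  ext n
  rw [PowerSeries.coeff_smul, smul_eq_mul]; ring

lemma ev_mul {d : ℝ} {p q : PowerSeries ℝ} (hp : Sm d p) (hq : Sm d q) {z : ℝ} (hz : |z| ≤ d) :
    ev (p * q) z = ev p z * ev q z := by
  unfold ev
  rw [tsum_mul_tsum_eq_tsum_sum_antidiagonal_of_summable_norm (hp.norm hz) (hq.norm hz)]
  congr 1
  ext n
  rw [PowerSeries.coeff_mul, Finset.sum_mul]
  apply Finset.sum_congr rfl
  intro x hx
  rw [Finset.HasAntidiagonal.mem_antidiagonal] at hx
  rw [← hx, pow_add]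
  ring

lemma ev_X_mul {d : ℝ} {p : PowerSeries ℝ} (hp : Sm d p) {z : ℝ} (hz : |z| ≤ d) :
    ev (X * p) z = z * ev p z := by
  unfold ev
  rw [(hp.X_mul.summable hz).tsum_eq_zero_add, ← tsum_mul_left]
  simp only [PowerSeries.coeff_zero_X_mul, zero_mul, zero_add]
  congr 1
  ext n
  rw [PowerSeries.coeff_succ_X_mul]
  ring

lemma contDiffAt_ev {d : ℝ} (hd : 0 < d) {p : PowerSeries ℝ} (hp : Sm d p) {z : ℝ}
    (hz : |z| < d) : ContDiffAt ℝ (⊤ : ℕ∞) (ev p) z := by
  set c : ℕ → ℝ := fun n => coeff n p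
  set P := FormalMultilinearSeries.ofScalars ℝ c with hP
  obtain ⟨D, hD⟩ : ∃ D : NNReal, (D : ℝ) = d := ⟨⟨d, hd.le⟩, rfl⟩
  have hr : (D : ENNReal) ≤ P.radius := by
    apply FormalMultilinearSeries.le_radius_of_summable
    rw [hD]
    refine hp.congr ?_
    intro n
    rw [hP, FormalMultilinearSeries.ofScalars_norm]
    rfl
  have hpos : 0 < P.radius := lt_of_lt_of_le (by
    rw [ENNReal.coe_pos, ← NNReal.coe_pos, hD]
    exact hd) hr
  have hball := P.hasFPowerSeriesOnBall hpos
  have hmem : z ∈ Metric.eball (0 : ℝ) P.radius := by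
    refine Metric.eball_subset_eball hr ?_
    rw [Metric.mem_eball, edist_zero_right, enorm_lt_coe]
    rw [← NNReal.coe_lt_coe, hD]
    simpa using hz
  have han := hball.analyticAt_of_mem hmem
  have he : P.sum = ev p := by
    have := FormalMultilinearSeries.ofScalarsSum_eq_tsum (E := ℝ) c
    unfold FormalMultilinearSeries.ofScalarsSum at this
    rw [← hP] at this
    rw [this]
    rfl
  rw [he] at han
  exact han.contDiffAt

/-- derivative series -/
lemma hasDerivAt_ev {d : ℝ} (hd : 0 < d) {p : PowerSeries ℝ} (hp : Sm d p) {z : ℝ}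
    (hz : |z| < d) :
    (Summable fun n : ℕ => coeff n p * (n * z ^ (n - 1))) ∧
    HasDerivAt (ev p) (∑' n : ℕ, coeff n p * (n * z ^ (n - 1))) z := by
  obtain ⟨r, hr1, hr2⟩ := exists_between hz
  have hr0 : 0 < r := lt_of_le_of_lt (abs_nonneg _) hr1
  set q := r / d with hq
  have hq0 : 0 ≤ q := by positivity
  have hq1 : q < 1 := by rw [hq, div_lt_one hd]; exact hr2
  have ht := tendsto_self_mul_const_pow_of_lt_one hq0 hq1
  obtain ⟨C, hC⟩ := ht.bddAbove_range
  have hC' : ∀ n : ℕ, (n : ℝ) * q ^ n ≤ C := fun n => hC ⟨n, rfl⟩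
  have hb : ∀ n : ℕ, (n : ℝ) * r ^ (n - 1) ≤ (C / r) * d ^ n := by
    intro n
    rcases Nat.eq_zero_or_pos n with h0 | h0
    · subst h0
      have := hC' 0
      simp only [Nat.cast_zero, zero_mul] at this ⊢
      positivity
    · have e1 : r ^ n = r * r ^ (n - 1) := by
        rw [← pow_succ', Nat.sub_add_cancel h0]
      have e2 : q ^ n = r ^ n / d ^ n := by rw [hq, div_pow]
      have h3 := hC' n
      rw [e2, e1] at h3
      have hdn : 0 < d ^ n := by positivity
      rw [div_mul_eq_mul_div, le_div_iff₀ hr0]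
      calc (n : ℝ) * r ^ (n - 1) * r = (n * (r * r ^ (n - 1) / d ^ n)) * d ^ n := by
            field_simp
        _ ≤ C * d ^ n := mul_le_mul_of_nonneg_right h3 hdn.le
  set u : ℕ → ℝ := fun n => (C / r) * (|coeff n p| * d ^ n) with hu
  have hus : Summable u := Summable.mul_left _ hp
  have hbound : ∀ (n : ℕ) (y : ℝ), y ∈ Metric.ball (0 : ℝ) r →
      ‖coeff n p * ((n : ℝ) * y ^ (n - 1))‖ ≤ u n := by
    intro n y hy
    rw [Metric.mem_ball, dist_zero_right, Real.norm_eq_abs] at hy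
    rw [Real.norm_eq_abs, abs_mul, abs_mul, abs_pow, Nat.abs_cast]
    have h1 : |y| ^ (n - 1) ≤ r ^ (n - 1) := pow_le_pow_left₀ (abs_nonneg _) hy.le _
    calc |coeff n p| * ((n : ℝ) * |y| ^ (n - 1)) ≤ |coeff n p| * ((n : ℝ) * r ^ (n - 1)) := by
          gcongr
      _ ≤ |coeff n p| * ((C / r) * d ^ n) := by
          apply mul_le_mul_of_nonneg_left (hb n) (abs_nonneg _)
      _ = u n := by rw [hu]; ring
  have hzb : z ∈ Metric.ball (0 : ℝ) r := by
    rw [Metric.mem_ball, dist_zero_right, Real.norm_eq_abs]; exact hr1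
  refine ⟨Summable.of_norm_bounded hus (fun n => hbound n z hzb), ?_⟩
  have := hasDerivAt_tsum_of_isPreconnected (g := fun (n : ℕ) (y : ℝ) => coeff n p * y ^ n)
    (g' := fun (n : ℕ) (y : ℝ) => coeff n p * ((n : ℝ) * y ^ (n - 1))) (y₀ := 0) (y := z)
    hus Metric.isOpen_ball (convex_ball (0 : ℝ) r).isPreconnected
    (fun n y _ => (hasDerivAt_pow n y).const_mul _) hbound (Metric.mem_ball_self hr0)
    (hp.summable (by simpa using hd.le)) hzb
  exact this

/-! ### formal solution -/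

noncomputable def RX (k : ℝ) (x e : PowerSeries ℝ) : PowerSeries ℝ :=
  x * e + (-(2 * (k - 1) / k)) • (x * x) + (2 / k) • (X * (x * x * e))

noncomputable def RE (k : ℝ) (x e : PowerSeries ℝ) : PowerSeries ℝ :=
  (-(k / 2)) • (e * e) + (2 * (k + 2) / k) • (x * e) + (2 / k) • (X * (x * e * e))

def Agr (n : ℕ) (p q : PowerSeries ℝ) : Prop := ∀ m ≤ n, coeff m p = coeff m q

lemma Agr.add {n : ℕ} {p q p' q' : PowerSeries ℝ} (h : Agr n p p') (h' : Agr n q q') :
    Agr n (p + q) (p' + q') := by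
  intro m hm
  rw [map_add, map_add, h m hm, h' m hm]

lemma Agr.smul {n : ℕ} {p p' : PowerSeries ℝ} (c : ℝ) (h : Agr n p p') :
    Agr n (c • p) (c • p') := by
  intro m hm
  rw [PowerSeries.coeff_smul, PowerSeries.coeff_smul, h m hm]

lemma Agr.mul {n : ℕ} {p q p' q' : PowerSeries ℝ} (h : Agr n p p') (h' : Agr n q q') :
    Agr n (p * q) (p' * q') := by
  intro m hm
  rw [PowerSeries.coeff_mul, PowerSeries.coeff_mul]
  apply Finset.sum_congr rfl
  intro x hx
  rw [Finset.HasAntidiagonal.mem_antidiagonal] at hx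
  rw [h x.1 (by omega), h' x.2 (by omega)]

lemma Agr.X_mul {n : ℕ} {p p' : PowerSeries ℝ} (h : Agr n p p') :
    Agr n (X * p) (X * p') := by
  intro m hm
  rcases m with _ | m
  · rw [PowerSeries.coeff_zero_X_mul, PowerSeries.coeff_zero_X_mul]
  · rw [PowerSeries.coeff_succ_X_mul, PowerSeries.coeff_succ_X_mul, h m (by omega)]

lemma Agr.RX {n : ℕ} {k : ℝ} {p q p' q' : PowerSeries ℝ} (h : Agr n p p') (h' : Agr n q q') :
    Agr n (RX k p q) (RX k p' q') :=
  ((h.mul h').add ((h.mul h).smul _)).add ((((h.mul h).mul h').X_mul).smul _)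

lemma Agr.RE {n : ℕ} {k : ℝ} {p q p' q' : PowerSeries ℝ} (h : Agr n p p') (h' : Agr n q q') :
    Agr n (RE k p q) (RE k p' q') :=
  (((h'.mul h').smul _).add ((h.mul h').smul _)).add ((((h.mul h').mul h').X_mul).smul _)

noncomputable def st (k : ℝ) : ℕ → PowerSeries ℝ × PowerSeries ℝ
  | 0 => (PowerSeries.mk fun m => if m = 0 then 1 else 0,
      PowerSeries.mk fun m => if m = 0 then (2 * (k + 1) / k) / (k + 2) else 0)
  | n + 1 =>
    (PowerSeries.mk fun m => if m = n + 1 then
        coeff n (RX k (st k n).1 (st k n).2) / (4 * (n + 1)) else coeff m (st k n).1,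
     PowerSeries.mk fun m => if m = n + 1 then
        ((2 * (k + 1) / k) * (coeff n (RX k (st k n).1 (st k n).2) / (4 * (n + 1))) +
          coeff n (RE k (st k n).1 (st k n).2)) / (2 * (n + 1) + k + 2)
        else coeff m (st k n).2)

lemma st_stable (k : ℝ) (n d m : ℕ) (hm : m ≤ n) :
    coeff m (st k (n + d)).1 = coeff m (st k n).1 ∧
    coeff m (st k (n + d)).2 = coeff m (st k n).2 := by
  induction d with
  | zero => simp
  | succ d ih =>
    rw [← add_assoc]
    have hne : ¬ (m = n + d + 1) := by omega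
    constructor
    · rw [st, PowerSeries.coeff_mk, if_neg hne]; exact ih.1
    · rw [st, PowerSeries.coeff_mk, if_neg hne]; exact ih.2

noncomputable def xs (k : ℝ) : PowerSeries ℝ := PowerSeries.mk fun n => coeff n (st k n).1
noncomputable def es (k : ℝ) : PowerSeries ℝ := PowerSeries.mk fun n => coeff n (st k n).2

lemma xs_agr (k : ℝ) (n : ℕ) : Agr n (xs k) (st k n).1 := by
  intro m hm
  rw [xs, PowerSeries.coeff_mk]
  obtain ⟨d, rfl⟩ := Nat.exists_eq_add_of_le hm
  exact ((st_stable k m d m le_rfl).1).symm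

lemma es_agr (k : ℝ) (n : ℕ) : Agr n (es k) (st k n).2 := by
  intro m hm
  rw [es, PowerSeries.coeff_mk]
  obtain ⟨d, rfl⟩ := Nat.exists_eq_add_of_le hm
  exact ((st_stable k m d m le_rfl).2).symm

lemma xs_zero (k : ℝ) : coeff 0 (xs k) = 1 := by
  rw [xs, PowerSeries.coeff_mk, st, PowerSeries.coeff_mk, if_pos rfl]

lemma es_zero (k : ℝ) : coeff 0 (es k) = (2 * (k + 1) / k) / (k + 2) := by
  rw [es, PowerSeries.coeff_mk, st, PowerSeries.coeff_mk, if_pos rfl]

lemma xs_succ (k : ℝ) (n : ℕ) :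
    coeff (n + 1) (xs k) = coeff n (RX k (xs k) (es k)) / (4 * (n + 1)) := by
  rw [(Agr.RX (k := k) (xs_agr k n) (es_agr k n)) n le_rfl]
  rw [xs, PowerSeries.coeff_mk, st, PowerSeries.coeff_mk, if_pos rfl]

lemma es_succ (k : ℝ) (n : ℕ) :
    coeff (n + 1) (es k) = ((2 * (k + 1) / k) * coeff (n + 1) (xs k) +
      coeff n (RE k (xs k) (es k))) / (2 * (n + 1) + k + 2) := by
  rw [xs_succ]
  rw [es, PowerSeries.coeff_mk, st, PowerSeries.coeff_mk, if_pos rfl]
  rw [← (Agr.RX (k := k) (xs_agr k n) (es_agr k n)) n le_rfl,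
    ← (Agr.RE (k := k) (xs_agr k n) (es_agr k n)) n le_rfl]
  rfl

/-! ### bounds -/

lemma A_RX_le {d k : ℝ} (hd : 0 ≤ d) (hk : 1 ≤ k) (x e : PowerSeries ℝ) (N : ℕ) :
    A d (RX k x e) N ≤ A d x N * A d e N + 2 * (A d x N * A d x N) +
      2 * (d * (A d x N * A d x N * A d e N)) := by
  have k0 : 0 < k := by linarith
  have hx := A_nonneg hd x N
  have he := A_nonneg hd e N
  unfold RX
  refine (A_add_le hd _ _ N).trans ?_
  have h1 := A_add_le hd (x * e) ((-(2 * (k - 1) / k)) • (x * x)) N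
  have h2 := A_mul_le hd x e N
  have h3 := A_mul_le hd x x N
  have h4 : A d ((-(2 * (k - 1) / k)) • (x * x)) N ≤ 2 * (A d x N * A d x N) := by
    rw [A_smul]
    have c1 : |(-(2 * (k - 1) / k))| ≤ 2 := by
      rw [abs_neg, abs_of_nonneg (by apply div_nonneg <;> linarith), div_le_iff₀ k0]
      linarith
    exact mul_le_mul c1 h3 (A_nonneg hd _ _) (by norm_num)
  have h5 : A d ((2 / k) • (X * (x * x * e))) N ≤ 2 * (d * (A d x N * A d x N * A d e N)) := by
    rw [A_smul]
    have c1 : |2 / k| ≤ 2 := by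
      rw [abs_of_nonneg (by positivity), div_le_iff₀ k0]
      linarith
    have h6 := A_X_mul_le hd (x * x * e) N
    have h7 := A_mul_le hd (x * x) e N
    have h8 : A d (x * x) N * A d e N ≤ A d x N * A d x N * A d e N :=
      mul_le_mul_of_nonneg_right h3 he
    have h9 : A d (X * (x * x * e)) N ≤ d * (A d x N * A d x N * A d e N) :=
      h6.trans (mul_le_mul_of_nonneg_left (h7.trans h8) hd)
    exact mul_le_mul c1 h9 (A_nonneg hd _ _) (by norm_num)
  linarith

lemma A_RE_le {d k : ℝ} (hd : 0 ≤ d) (hk : 1 ≤ k) (x e : PowerSeries ℝ) (N : ℕ) :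
    A d (RE k x e) N ≤ (k + 2) * ((1 / 2) * (A d e N * A d e N) + 2 * (A d x N * A d e N) +
      (d * (A d x N * A d e N * A d e N))) := by
  have k0 : 0 < k := by linarith
  have hx := A_nonneg hd x N
  have he := A_nonneg hd e N
  unfold RE
  refine (A_add_le hd _ _ N).trans ?_
  have h1 := A_add_le hd ((-(k / 2)) • (e * e)) ((2 * (k + 2) / k) • (x * e)) N
  have h2 := A_mul_le hd x e N
  have h3 := A_mul_le hd e e N
  have h4 : A d ((-(k / 2)) • (e * e)) N ≤ ((k + 2) * (1 / 2)) * (A d e N * A d e N) := by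
    rw [A_smul]
    have c1 : |(-(k / 2))| ≤ (k + 2) * (1 / 2) := by
      rw [abs_neg, abs_of_nonneg (by positivity)]
      linarith
    exact mul_le_mul c1 h3 (A_nonneg hd _ _) (by positivity)
  have h4' : A d ((2 * (k + 2) / k) • (x * e)) N ≤ ((k + 2) * 2) * (A d x N * A d e N) := by
    rw [A_smul]
    have c1 : |2 * (k + 2) / k| ≤ (k + 2) * 2 := by
      rw [abs_of_nonneg (by positivity), div_le_iff₀ k0]
      nlinarith
    exact mul_le_mul c1 h2 (A_nonneg hd _ _) (by positivity)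
  have h5 : A d ((2 / k) • (X * (x * e * e))) N ≤
      (k + 2) * (d * (A d x N * A d e N * A d e N)) := by
    rw [A_smul]
    have c1 : |2 / k| ≤ k + 2 := by
      rw [abs_of_nonneg (by positivity), div_le_iff₀ k0]
      nlinarith
    have h6 := A_X_mul_le hd (x * e * e) N
    have h7 := A_mul_le hd (x * e) e N
    have h8 : A d (x * e) N * A d e N ≤ A d x N * A d e N * A d e N :=
      mul_le_mul_of_nonneg_right h2 he
    have h9 : A d (X * (x * e * e)) N ≤ d * (A d x N * A d e N * A d e N) :=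
      h6.trans (mul_le_mul_of_nonneg_left (h7.trans h8) hd)
    exact mul_le_mul c1 h9 (A_nonneg hd _ _) (by positivity)
  linarith

lemma A_xs_succ {d k : ℝ} (hd : 0 ≤ d) (N : ℕ) :
    A d (xs k) (N + 1) ≤ 1 + d / 4 * A d (RX k (xs k) (es k)) N := by
  unfold A
  rw [Finset.sum_range_succ' _ (N + 1), xs_zero, abs_one, one_mul, pow_zero, add_comm,
    Finset.mul_sum]
  apply add_le_add le_rfl
  apply Finset.sum_le_sum
  intro n _
  rw [xs_succ, abs_div, abs_of_nonneg (show (0 : ℝ) ≤ 4 * (n + 1) by positivity)]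
  have h1 : |coeff n (RX k (xs k) (es k))| / (4 * ((n : ℝ) + 1)) ≤
      |coeff n (RX k (xs k) (es k))| / 4 := by
    apply div_le_div_of_nonneg_left (abs_nonneg _) (by norm_num)
    have : (0 : ℝ) ≤ n := by positivity
    linarith
  calc |coeff n (RX k (xs k) (es k))| / (4 * ((n : ℝ) + 1)) * d ^ (n + 1)
      ≤ |coeff n (RX k (xs k) (es k))| / 4 * d ^ (n + 1) :=
        mul_le_mul_of_nonneg_right h1 (by positivity)
    _ = d / 4 * (|coeff n (RX k (xs k) (es k))| * d ^ n) := by ring

lemma A_es_succ {d k : ℝ} (hd : 0 ≤ d) (hk : 1 ≤ k) (N : ℕ) :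
    A d (es k) (N + 1) ≤ 2 * A d (xs k) (N + 1) +
      d / (k + 2) * A d (RE k (xs k) (es k)) N := by
  have k0 : 0 < k := by linarith
  have hq : 2 * (k + 1) / k ≤ 4 := by
    rw [div_le_iff₀ k0]; linarith
  have hq0 : 0 ≤ 2 * (k + 1) / k := by positivity
  unfold A
  rw [Finset.sum_range_succ' _ (N + 1), Finset.sum_range_succ' _ (N + 1), xs_zero, es_zero]
  have h0 : |2 * (k + 1) / k / (k + 2)| * d ^ 0 ≤ 2 * (|(1 : ℝ)| * d ^ 0) := by
    rw [pow_zero, abs_one, mul_one, mul_one, abs_of_nonneg (by positivity),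
      div_le_iff₀ (by linarith)]
    linarith
  have hmain : ∑ n ∈ range (N + 1), |coeff (n + 1) (es k)| * d ^ (n + 1) ≤
      2 * ∑ n ∈ range (N + 1), (|coeff (n + 1) (xs k)| * d ^ (n + 1)) +
      d / (k + 2) * ∑ n ∈ range (N + 1), (|coeff n (RE k (xs k) (es k))| * d ^ n) := by
    rw [Finset.mul_sum, Finset.mul_sum, ← Finset.sum_add_distrib]
    apply Finset.sum_le_sum
    intro n _
    have n0 : (0 : ℝ) ≤ n := by positivity
    have hden : 0 < 2 * ((n : ℝ) + 1) + k + 2 := by linarith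
    have e1 : |coeff (n + 1) (es k)| ≤ 2 * |coeff (n + 1) (xs k)| +
        |coeff n (RE k (xs k) (es k))| / (k + 2) := by
      rw [es_succ, abs_div, abs_of_pos hden, div_le_iff₀ hden]
      have t1 := abs_add_le (2 * (k + 1) / k * coeff (n + 1) (xs k))
        (coeff n (RE k (xs k) (es k)))
      rw [abs_mul, abs_of_nonneg hq0] at t1
      have t2 : 2 * (k + 1) / k * |coeff (n + 1) (xs k)| ≤
          2 * |coeff (n + 1) (xs k)| * (2 * ((n : ℝ) + 1) + k + 2) := by
        have := abs_nonneg (coeff (n + 1) (xs k))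
        nlinarith
      have t3 : |coeff n (RE k (xs k) (es k))| ≤
          |coeff n (RE k (xs k) (es k))| / (k + 2) * (2 * ((n : ℝ) + 1) + k + 2) := by
        rw [div_mul_eq_mul_div, le_div_iff₀ (by linarith)]
        apply mul_le_mul_of_nonneg_left _ (abs_nonneg _)
        linarith
      linarith
    calc |coeff (n + 1) (es k)| * d ^ (n + 1)
        ≤ (2 * |coeff (n + 1) (xs k)| + |coeff n (RE k (xs k) (es k))| / (k + 2)) *
          d ^ (n + 1) := mul_le_mul_of_nonneg_right e1 (by positivity)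
      _ = 2 * (|coeff (n + 1) (xs k)| * d ^ (n + 1)) +
          d / (k + 2) * (|coeff n (RE k (xs k) (es k))| * d ^ n) := by
          rw [pow_succ]; field_simp
  linarith

lemma bounds {k : ℝ} (hk : 1 ≤ k) (N : ℕ) :
    A (1 / 100) (xs k) N ≤ 2 ∧ A (1 / 100) (es k) N ≤ 5 := by
  have hd : (0 : ℝ) ≤ 1 / 100 := by norm_num
  have k0 : 0 < k := by linarith
  induction N with
  | zero =>
    constructor
    · unfold A
      simp [xs_zero]
    · unfold A
      simp only [zero_add, Finset.range_one, Finset.sum_singleton, pow_zero, mul_one, es_zero]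
      rw [abs_of_nonneg (by positivity), div_le_iff₀ (by linarith), div_le_iff₀ k0]
      nlinarith
  | succ N ih =>
    obtain ⟨ih1, ih2⟩ := ih
    have ax := A_nonneg hd (xs k) N
    have ae := A_nonneg hd (es k) N
    have b1 := A_RX_le hd hk (xs k) (es k) N
    have b2 := A_RE_le hd hk (xs k) (es k) N
    have c1 := A_xs_succ (k := k) hd N
    have c2 := A_es_succ hd hk N
    set a := A (1 / 100) (xs k) N
    set b := A (1 / 100) (es k) N
    have p1 : a * b ≤ 10 := by nlinarith
    have p2 : a * a ≤ 4 := by nlinarith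
    have p3 : b * b ≤ 25 := by nlinarith
    have p4 : a * a * b ≤ 20 := by nlinarith [mul_nonneg ax ax]
    have p5 : a * b * b ≤ 50 := by nlinarith [mul_nonneg ax ae]
    have q1 : A (1 / 100) (RX k (xs k) (es k)) N ≤ 19 := by linarith
    have q2 : A (1 / 100) (RE k (xs k) (es k)) N ≤ (k + 2) * 34 := by
      refine b2.trans ?_
      apply mul_le_mul_of_nonneg_left _ (by linarith)
      linarith
    have r1 : A (1 / 100) (xs k) (N + 1) ≤ 2 := by linarith
    refine ⟨r1, ?_⟩
    have q3 : (1 / 100 : ℝ) / (k + 2) * A (1 / 100) (RE k (xs k) (es k)) N ≤ 34 / 100 := by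
      rw [div_mul_eq_mul_div, div_le_iff₀ (by linarith)]
      linarith
    linarith

lemma xs_Sm {k : ℝ} (hk : 1 ≤ k) : Sm (1 / 100) (xs k) :=
  Sm_of_bound (by norm_num) _ 2 fun N => (bounds hk N).1

lemma es_Sm {k : ℝ} (hk : 1 ≤ k) : Sm (1 / 100) (es k) :=
  Sm_of_bound (by norm_num) _ 5 fun N => (bounds hk N).2

lemma ev_zero (p : PowerSeries ℝ) : ev p 0 = coeff 0 p := by
  unfold ev
  rw [tsum_eq_single 0]
  · simp
  · intro n hn
    simp [hn]

end Vale.Agent.P252.Loc

namespace Vale.Agent.P252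

open Loc PowerSeries

open scoped ContDiff in
theorem local_solution (k : ℝ) (hk : 1 ≤ k) : ∃ δ : ℝ, 0 < δ ∧ ∃ x e : ℝ → ℝ, x 0 = 1 ∧
    ∀ z : ℝ, |z| < δ → ContDiffAt ℝ ∞ x z ∧ ContDiffAt ℝ ∞ e z ∧
      HasDerivAt x (x z * (e z - 2 * x z * (k - 1 - z * e z) / k) / 4) z ∧
      ∃ e' : ℝ, HasDerivAt e e' z ∧
        2 * z * e' = -(k + 2) * e z - (k / 2) * z * e z ^ 2
          + (2 / k) * x z * (1 + z * e z) * (k + 1 + z * e z) := by
  have k0 : 0 < k := by linarith
  have hd : (0 : ℝ) < 1 / 100 := by norm_num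
  have hd' : (0 : ℝ) ≤ 1 / 100 := by norm_num
  refine ⟨1 / 100, hd, ev (xs k), ev (es k), ?_, ?_⟩
  · rw [ev_zero, xs_zero]
  intro z hz
  have hx := xs_Sm hk
  have he := es_Sm hk
  have hz' := hz.le
  have hxe := hx.mul hd' he
  have hxx := hx.mul hd' hx
  have hee := he.mul hd' he
  have hxxe := hxx.mul hd' he
  have hxee := hxe.mul hd' he
  have hX := hxxe.X_mul
  have hE := hxee.X_mul
  have hRX : Sm (1 / 100) (RX k (xs k) (es k)) :=
    (hxe.add hd' (hxx.smul _)).add hd' (hX.smul _)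
  have hRE : Sm (1 / 100) (RE k (xs k) (es k)) :=
    ((hee.smul _).add hd' (hxe.smul _)).add hd' (hE.smul _)
  have vX : ev (RX k (xs k) (es k)) z = ev (xs k) z * ev (es k) z +
      (-(2 * (k - 1) / k)) * (ev (xs k) z * ev (xs k) z) +
      (2 / k) * (z * (ev (xs k) z * ev (xs k) z * ev (es k) z)) := by
    unfold RX
    rw [ev_add (hxe.add hd' (hxx.smul _)) (hX.smul _) hz', ev_add hxe (hxx.smul _) hz',
      ev_smul, ev_smul, ev_X_mul hxxe hz', ev_mul hxx he hz', ev_mul hx hx hz',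
      ev_mul hx he hz']
  have vE : ev (RE k (xs k) (es k)) z = (-(k / 2)) * (ev (es k) z * ev (es k) z) +
      (2 * (k + 2) / k) * (ev (xs k) z * ev (es k) z) +
      (2 / k) * (z * (ev (xs k) z * ev (es k) z * ev (es k) z)) := by
    unfold RE
    rw [ev_add ((hee.smul _).add hd' (hxe.smul _)) (hE.smul _) hz',
      ev_add (hee.smul _) (hxe.smul _) hz',
      ev_smul, ev_smul, ev_smul, ev_X_mul hxee hz', ev_mul hxe he hz', ev_mul he he hz',
      ev_mul hx he hz']
  obtain ⟨sx, dx⟩ := hasDerivAt_ev hd hx hz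
  obtain ⟨se, de⟩ := hasDerivAt_ev hd he hz
  refine ⟨contDiffAt_ev hd hx hz, contDiffAt_ev hd he hz, ?_, _, de, ?_⟩
  · have hval : ∑' n : ℕ, coeff n (xs k) * (n * z ^ (n - 1)) =
        ev (xs k) z * (ev (es k) z - 2 * ev (xs k) z * (k - 1 - z * ev (es k) z) / k) / 4 := by
      rw [sx.tsum_eq_zero_add]
      have h1 : ∑' n : ℕ, coeff (n + 1) (xs k) * (((n + 1 : ℕ) : ℝ) * z ^ (n + 1 - 1)) =
          ev (RX k (xs k) (es k)) z / 4 := by
        unfold ev
        rw [← tsum_div_const]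
        congr 1
        ext n
        rw [xs_succ, Nat.add_sub_cancel]
        have : ((n : ℝ) + 1) ≠ 0 := by positivity
        push_cast
        field_simp
      rw [h1, vX]
      simp only [Nat.cast_zero, zero_mul, mul_zero, zero_add]
      field_simp
      ring
    rw [← hval]
    exact dx
  · have hsum : Summable fun n : ℕ => coeff n (es k) * (n * z ^ n) := by
      have := se.mul_left z
      refine this.congr ?_
      intro n
      rcases n with _ | n
      · simp
      · rw [Nat.add_sub_cancel, pow_succ]; ring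
    have hval : z * ∑' n : ℕ, coeff n (es k) * (n * z ^ (n - 1)) =
        ∑' n : ℕ, coeff n (es k) * (n * z ^ n) := by
      rw [← tsum_mul_left]
      congr 1
      ext n
      rcases n with _ | n
      · simp
      · rw [Nat.add_sub_cancel, pow_succ]; ring
    have hcoef : ∀ n : ℕ, 2 * (coeff n (es k) * (n * z ^ n)) =
        -(k + 2) * (coeff n (es k) * z ^ n) + (2 * (k + 1) / k) * (coeff n (xs k) * z ^ n) +
          coeff n (X * RE k (xs k) (es k)) * z ^ n := by
      intro n
      rcases n with _ | n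
      · rw [PowerSeries.coeff_zero_X_mul, es_zero, xs_zero]
        have : k + 2 ≠ 0 := by positivity
        simp only [pow_zero, Nat.cast_zero]
        field_simp
        ring
      · rw [PowerSeries.coeff_succ_X_mul, es_succ]
        have : 2 * ((n : ℝ) + 1) + k + 2 ≠ 0 := by positivity
        push_cast
        field_simp
        ring
    have hfin : 2 * ∑' n : ℕ, coeff n (es k) * (n * z ^ n) =
        -(k + 2) * ev (es k) z + (2 * (k + 1) / k) * ev (xs k) z +
          ev (X * RE k (xs k) (es k)) z := by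
      rw [← tsum_mul_left]
      simp_rw [hcoef]
      rw [Summable.tsum_add, Summable.tsum_add, tsum_mul_left, tsum_mul_left]
      · rfl
      · exact (he.summable hz').mul_left _
      · exact (hx.summable hz').mul_left _
      · exact ((he.summable hz').mul_left _).add ((hx.summable hz').mul_left _)
      · exact hRE.X_mul.summable hz'
    rw [mul_assoc, hval, hfin, ev_X_mul hRE hz', vE]
    field_simp
    ring

end Vale.Agent.P252
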