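import Mathlib
import Vale.Agent.P252.Defs
import Vale.Agent.P252.Profile
import Vale.Agent.P252.Local
import Vale.Agent.P252.Assemble
import Vale.Agent.P252.Complete
import Vale.Agent.P252.GeomFinal

/-!
Smooth entire nonquadratic solutions of the affine maximal equation in all dimensions `n ≥ 10`.
-/

namespace Vale.Agent.P252

open scoped ContDiff

theorem localSol (k : ℝ) (hk : 1 ≤ k) : LocalSol k := by
  obtain ⟨δ, hδ, x, e, h0, h⟩ := local_solution k hk
  exact ⟨δ, hδ, x, e, h0, h⟩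

theorem exists_profile (k : ℕ) (hk : 9 ≤ k) : Nonempty (Profile k) :=
  profile_of_local k hk (localSol k (by
    have : (9 : ℝ) ≤ (k : ℝ) := by exact_mod_cast hk
    linarith))

theorem exists_counterexample (n : ℕ) (hn : 10 ≤ n) :
    ∃ u : E n → ℝ, ContDiff ℝ ∞ u ∧ (∀ x, (hess u x).PosDef) ∧ (∀ x, AffineMaximalAt u x) ∧
      EuclideanComplete Set.univ u ∧ ¬ IsQuadratic u := by
  obtain ⟨k, rfl⟩ : ∃ k, n = k + 1 := ⟨n - 1, by omega⟩
  obtain ⟨P⟩ := exists_profile k (by omega)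
  obtain ⟨u, h1, h2, h3, h4⟩ := exists_of_profile (by omega) P
  exact ⟨u, h1, h2, h3, euclideanComplete_univ u (h1.of_le (by exact_mod_cast le_top)), h4⟩

theorem main (n : ℕ) (hn : 10 ≤ n) :
    (∃ u : E n → ℝ, ContDiff ℝ ∞ u ∧ (∀ x, (hess u x).PosDef) ∧ (∀ x, AffineMaximalAt u x) ∧
      EuclideanComplete Set.univ u ∧ ¬ IsQuadratic u) ∧
    ¬ EntireAffineBernstein n ∧ ¬ AffineBernstein n := by
  obtain ⟨u, h1, h2, h3, h4, h5⟩ := exists_counterexample n hn
  refine ⟨⟨u, h1, h2, h3, h4, h5⟩, fun h => h5 (h u h1 h2 h3), fun h => h5 ?_⟩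
  obtain ⟨_, A, b, c, _, h6⟩ := h Set.univ u Set.univ_nonempty isOpen_univ convex_univ
    h1.contDiffOn (fun x _ => h2 x) (fun x _ => h3 x) h4
  exact ⟨A, b, c, h6⟩

end Vale.Agent.P252
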